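import Mathlib

namespace Vale.Agent.P105

open Real

/-- Distance to the nearest integer. -/
noncomputable def dn (x : ℝ) : ℝ := |x - round x|

lemma dn_eq (x : ℝ) : dn x = ‖(x : UnitAddCircle)‖ := by
  rw [UnitAddCircle.norm_eq]; rfl

lemma dn_nonneg (x : ℝ) : 0 ≤ dn x := abs_nonneg _

lemma dn_le_half (x : ℝ) : dn x ≤ 1 / 2 := abs_sub_round x

lemma dn_le_sub_int (x : ℝ) (k : ℤ) : dn x ≤ |x - k| := round_le x k

lemma dn_le_abs (x : ℝ) : dn x ≤ |x| := by
  simpa using dn_le_sub_int x 0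

lemma dn_add_le (x y : ℝ) : dn (x + y) ≤ dn x + dn y := by
  have h := dn_le_sub_int (x + y) (round x + round y)
  have h2 : x + y - ((round x + round y : ℤ) : ℝ) = (x - round x) + (y - round y) := by
    push_cast; ring
  rw [h2] at h
  exact h.trans (abs_add_le _ _)

lemma dn_neg (x : ℝ) : dn (-x) = dn x := by
  rw [dn_eq, dn_eq]
  simp

lemma dn_sub_le (x y : ℝ) : dn (x - y) ≤ dn x + dn y := by
  have := dn_add_le x (-y)
  rwa [dn_neg, ← sub_eq_add_neg] at this

lemma dn_int (k : ℤ) : dn (k : ℝ) = 0 := by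
  simp [dn]

/-- If three numbers sum to an integer, the first is as close to an integer as the others. -/
lemma dn_le_of_sum {x y w : ℝ} {k : ℤ} (h : x + y + w = k) : dn x ≤ dn y + |w| := by
  have h1 : x = (k : ℝ) - (y + w) := by linarith
  calc dn x = dn ((k : ℝ) - (y + w)) := by rw [← h1]
    _ ≤ dn (k : ℝ) + dn (y + w) := dn_sub_le _ _
    _ ≤ 0 + (dn y + dn w) := by rw [dn_int]; gcongr; exact dn_add_le _ _
    _ ≤ dn y + |w| := by have := dn_le_abs w; linarith

lemma abs_sin_le (x : ℝ) : |sin (π * x)| ≤ π * dn x := by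
  have h : π * x = π * (x - round x) + (round x : ℤ) * π := by ring
  rw [h, Real.sin_add_int_mul_pi, abs_mul]
  have h1 : |((-1 : ℝ) ^ (round x))| = 1 := by
    rw [abs_zpow]; simp
  rw [h1, one_mul]
  refine Real.abs_sin_le_abs.trans ?_
  rw [abs_mul, abs_of_pos Real.pi_pos]; rfl

lemma abs_cos_eq (x : ℝ) : |cos (π * x)| = |cos (π * dn x)| := by
  have h : π * x = π * (x - round x) + (round x : ℤ) * π := by ring
  rw [h, Real.cos_add_int_mul_pi, abs_mul]
  have h1 : |((-1 : ℝ) ^ (round x))| = 1 := by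
    rw [abs_zpow]; simp
  rw [h1, one_mul]
  have h2 : π * dn x = |π * (x - round x)| := by
    rw [abs_mul, abs_of_pos Real.pi_pos]; rfl
  rw [h2, Real.cos_abs]

lemma exists_cos_lower {b : ℝ} (hb : b < 1 / 2) :
    ∃ C : ℝ, 0 ≤ C ∧ ∀ x : ℝ, dn x ≤ b → exp (-(C * dn x ^ 2)) ≤ |cos (π * x)| := by
  set b' := max b 0 with hb'
  have hb0 : 0 ≤ b' := le_max_right _ _
  have hb1 : b' < 1 / 2 := max_lt hb (by norm_num)
  have hc : 0 < cos (π * b') := by
    apply Real.cos_pos_of_mem_Ioo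
    constructor
    · have := Real.pi_pos; nlinarith
    · have := Real.pi_pos; nlinarith
  refine ⟨π ^ 2 / (2 * cos (π * b')), by positivity, fun x hx => ?_⟩
  rw [abs_cos_eq]
  have ht0 := dn_nonneg x
  have htb : dn x ≤ b' := hx.trans (le_max_left _ _)
  have hmono : cos (π * b') ≤ cos (π * dn x) := by
    apply Real.cos_le_cos_of_nonneg_of_le_pi
    · positivity
    · have := Real.pi_pos; nlinarith
    · have := Real.pi_pos; nlinarith
  have hy : 0 < cos (π * dn x) := hc.trans_le hmono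
  rw [abs_of_pos hy]
  have h1 : 1 - (π * dn x) ^ 2 / 2 ≤ cos (π * dn x) := Real.one_sub_sq_div_two_le_cos
  have h2 : 1 - (cos (π * dn x))⁻¹ ≤ log (cos (π * dn x)) := Real.one_sub_inv_le_log_of_pos hy
  rw [← Real.exp_log hy]
  apply Real.exp_le_exp.mpr
  refine le_trans ?_ h2
  have h3 : (cos (π * dn x))⁻¹ - 1 = (1 - cos (π * dn x)) / cos (π * dn x) := by
    field_simp
  have h4 : (1 - cos (π * dn x)) / cos (π * dn x) ≤ ((π * dn x) ^ 2 / 2) / cos (π * b') := by
    apply div_le_div₀ (by positivity) (by linarith) hc hmono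
  have h5 : ((π * dn x) ^ 2 / 2) / cos (π * b') = π ^ 2 / (2 * cos (π * b')) * dn x ^ 2 := by
    field_simp
  linarith

lemma abs_prod_sub_le (x y : ℕ → ℝ) (hx : ∀ k, |x k| ≤ 1) (hy : ∀ k, |y k| ≤ 1) (K : ℕ) :
    |∏ k ∈ Finset.range K, x k - ∏ k ∈ Finset.range K, y k|
      ≤ ∑ k ∈ Finset.range K, |x k - y k| := by
  induction K with
  | zero => simp
  | succ K ih =>
    rw [Finset.prod_range_succ, Finset.prod_range_succ, Finset.sum_range_succ]
    have hP : |∏ k ∈ Finset.range K, y k| ≤ 1 := by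
      rw [Finset.abs_prod]
      exact Finset.prod_le_one (fun _ _ => abs_nonneg _) (fun k _ => hy k)
    have e : (∏ k ∈ Finset.range K, x k) * x K - (∏ k ∈ Finset.range K, y k) * y K
        = (∏ k ∈ Finset.range K, x k - ∏ k ∈ Finset.range K, y k) * x K
          + (∏ k ∈ Finset.range K, y k) * (x K - y K) := by ring
    rw [e]
    refine (abs_add_le _ _).trans ?_
    rw [abs_mul, abs_mul]
    have h1 := abs_nonneg (∏ k ∈ Finset.range K, x k - ∏ k ∈ Finset.range K, y k)
    have h2 := abs_nonneg (x K - y K)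
    have h3 := hx K
    nlinarith

/-- Dirichlet approximation with a lower bound on the exponent. -/
lemma dirichlet {w : ℂ} (hw : ‖w‖ = 1) {m Q : ℕ} (hm : 1 ≤ m) (hQ : 1 ≤ Q) :
    ∃ n : ℕ, m ≤ n ∧ ((n ≤ Q ∧ ‖w ^ n - 1‖ ≤ 7 / Q) ∨
      (n ≤ 2 * m ∧ ‖w ^ n - 1‖ ≤ 14 * m / Q)) := by
  obtain ⟨q, hq0, hqQ, hq⟩ := Real.exists_nat_abs_mul_sub_round_le (w.arg / (2 * π)) hQ
  have hwe : w = Complex.exp (Complex.I * (w.arg : ℝ)) := by
    have := Complex.norm_mul_exp_arg_mul_I w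
    rw [hw] at this
    simp only [Complex.ofReal_one, one_mul] at this
    rw [mul_comm]; exact this.symm
  have hQr : (0 : ℝ) < Q := by exact_mod_cast hQ
  have key : ∀ r : ℕ, ‖w ^ (q * r) - 1‖ ≤ 7 * r / Q := by
    intro r
    set j := round ((q : ℝ) * (w.arg / (2 * π))) with hj
    have e1 : w ^ (q * r) = Complex.exp (Complex.I *
        ((r * (2 * π) * (q * (w.arg / (2 * π)) - j) : ℝ) : ℂ)) := by
      have e2 : (Complex.I * ((r * (2 * π) * (q * (w.arg / (2 * π)) - j) : ℝ) : ℂ))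
          = ((q * r : ℕ) : ℂ) * (Complex.I * (w.arg : ℝ)) - ((r * j : ℤ) : ℂ) * (2 * π * Complex.I) := by
        have hpi : (π : ℂ) ≠ 0 := by exact_mod_cast Real.pi_ne_zero
        push_cast
        field_simp
      rw [e2, Complex.exp_sub, Complex.exp_int_mul_two_pi_mul_I, div_one, Complex.exp_nat_mul,
        ← hwe]
    rw [e1]
    refine Real.norm_exp_I_mul_ofReal_sub_one_le.trans ?_
    rw [Real.norm_eq_abs, abs_mul, abs_of_nonneg (by positivity : (0 : ℝ) ≤ r * (2 * π))]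
    have h1 : |(q : ℝ) * (w.arg / (2 * π)) - j| ≤ 1 / Q := by
      refine hq.trans ?_
      apply one_div_le_one_div_of_le hQr; linarith
    have h2 : π ≤ 3.15 := Real.pi_lt_d2.le
    calc (r : ℝ) * (2 * π) * |(q : ℝ) * (w.arg / (2 * π)) - j| ≤ r * 7 * (1 / Q) := by
          gcongr; linarith
      _ = 7 * r / Q := by ring
  by_cases hqm : m ≤ q
  · refine ⟨q, hqm, Or.inl ⟨hqQ, ?_⟩⟩
    simpa using key 1
  · push Not at hqm
    refine ⟨q * (m / q + 1), ?_, Or.inr ⟨?_, ?_⟩⟩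
    · have := Nat.lt_mul_div_succ m hq0
      omega
    · have := Nat.mul_div_le m q
      nlinarith
    · refine (key _).trans ?_
      have h2 : m / q + 1 ≤ 2 * m := by
        have : m / q ≤ m := Nat.div_le_self _ _
        omega
      have h3 : ((m / q + 1 : ℕ) : ℝ) ≤ 2 * m := by exact_mod_cast h2
      apply div_le_div_of_nonneg_right _ hQr.le
      linarith

end Vale.Agent.P105
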