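import Vale.Agent.P105.Fourier

namespace Vale.Agent.P105

open Real Finset MeasureTheory Filter

/-- The trigonometric test function. -/
noncomputable def tf (M : ℕ) (a ξ : ℕ → ℝ) (x : ℝ) : ℝ := ∑ p ∈ range M, a p * cos (ξ p * x)

lemma tf_cont (M : ℕ) (a ξ : ℕ → ℝ) : Continuous (tf M a ξ) := by
  unfold tf; fun_prop

lemma int_cos (m : Measure ℝ) [IsFiniteMeasure m] (ξ : ℝ) :
    Integrable (fun x => cos (ξ * x)) m :=
  Integrable.of_bound (Measurable.aestronglyMeasurable (by fun_prop)) 1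
    (ae_of_all _ fun _ => Real.abs_cos_le_one _)

lemma tf_sq (M : ℕ) (a ξ : ℕ → ℝ) (x : ℝ) : tf M a ξ x ^ 2 = ∑ p ∈ range M, ∑ q ∈ range M,
    (a p * a q / 2 * cos ((ξ p + ξ q) * x) + a p * a q / 2 * cos ((ξ p - ξ q) * x)) := by
  rw [tf, sq, sum_mul_sum]
  refine sum_congr rfl fun p _ => sum_congr rfl fun q _ => ?_
  rw [add_mul, sub_mul, cos_add, cos_sub]; ring

lemma tf_int (m : Measure ℝ) [IsFiniteMeasure m] (M : ℕ) (a ξ : ℕ → ℝ) :
    Integrable (tf M a ξ) m :=
  integrable_finset_sum _ fun p _ => (int_cos m (ξ p)).const_mul _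

lemma tf_sq_int (m : Measure ℝ) [IsFiniteMeasure m] (M : ℕ) (a ξ : ℕ → ℝ) :
    Integrable (fun x => tf M a ξ x ^ 2) m := by
  simp_rw [tf_sq]
  exact integrable_finset_sum _ fun p _ => integrable_finset_sum _ fun q _ =>
    ((int_cos m _).const_mul _).add ((int_cos m _).const_mul _)

lemma first_moment (m : Measure ℝ) [IsFiniteMeasure m] (M : ℕ) (a ξ : ℕ → ℝ) :
    ∫ x, tf M a ξ x ∂m = ∑ p ∈ range M, a p * ft m (ξ p) := by
  unfold tf
  rw [integral_finset_sum _ fun p _ => (int_cos m (ξ p)).const_mul _]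
  exact sum_congr rfl fun p _ => integral_const_mul _ _

lemma second_moment (m : Measure ℝ) [IsFiniteMeasure m] (M : ℕ) (a ξ : ℕ → ℝ) :
    ∫ x, tf M a ξ x ^ 2 ∂m = ∑ p ∈ range M, ∑ q ∈ range M,
      (a p * a q / 2 * ft m (ξ p + ξ q) + a p * a q / 2 * ft m (ξ p - ξ q)) := by
  simp_rw [tf_sq]
  have hI : ∀ p q, Integrable (fun x =>
      a p * a q / 2 * cos ((ξ p + ξ q) * x) + a p * a q / 2 * cos ((ξ p - ξ q) * x)) m :=
    fun p q => ((int_cos m _).const_mul _).add ((int_cos m _).const_mul _)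
  rw [integral_finset_sum _ fun p _ => integrable_finset_sum _ fun q _ => hI p q]
  refine sum_congr rfl fun p _ => ?_
  rw [integral_finset_sum _ fun q _ => hI p q]
  refine sum_congr rfl fun q _ => ?_
  rw [integral_add ((int_cos m _).const_mul _) ((int_cos m _).const_mul _), integral_const_mul,
    integral_const_mul]
  rfl

lemma double_sum_le {M : ℕ} {f : ℕ → ℕ → ℝ} {α γ : ℝ} (hγ : 0 ≤ γ)
    (h1 : ∀ p < M, f p p ≤ α) (h2 : ∀ p < M, ∀ q < M, p ≠ q → f p q ≤ γ) :
    ∑ p ∈ range M, ∑ q ∈ range M, f p q ≤ M * α + M ^ 2 * γ := by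
  have h3 : ∀ p ∈ range M, ∑ q ∈ range M, f p q ≤ α + M * γ := by
    intro p hp
    have h4 : ∀ q ∈ range M, f p q ≤ (if p = q then α else 0) + γ := by
      intro q hq
      split_ifs with hpq
      · subst hpq; linarith [h1 p (mem_range.mp hp)]
      · linarith [h2 p (mem_range.mp hp) q (mem_range.mp hq) hpq]
    refine (sum_le_sum h4).trans (le_of_eq ?_)
    rw [sum_add_distrib, sum_ite_eq, if_pos hp, sum_const, card_range, nsmul_eq_mul]
  refine (sum_le_sum h3).trans (le_of_eq ?_)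
  rw [sum_const, card_range, nsmul_eq_mul]; ring

lemma test (m : Measure ℝ) [IsProbabilityMeasure m] (hm : m (Set.Icc (-3) 3)ᶜ = 0) {M : ℕ}
    (hM : 1 ≤ M) {ξ : ℕ → ℝ} {c η : ℝ} (hc : 0 < c) (hη : 0 ≤ η)
    (h1 : ∀ p < M, c ≤ |ft m (ξ p)|)
    (h2 : ∀ p < M, ∀ q < M, p ≠ q → |ft m (ξ p + ξ q) - ft m (ξ p) * ft m (ξ q)| ≤ η ∧
      |ft m (ξ p - ξ q) - ft m (ξ p) * ft m (ξ q)| ≤ η)
    (h3 : ∀ p < M, ∀ q < M, p ≠ q → (M : ℝ) ≤ |ξ p + ξ q| ∧ (M : ℝ) ≤ |ξ p - ξ q|) :
    ∃ S : Set ℝ, MeasurableSet S ∧ volume S ≤ ENNReal.ofReal (32 / (M * c ^ 2)) ∧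
      m Sᶜ ≤ ENNReal.ofReal (8 / (M * c ^ 2) + 4 * η / c ^ 2) := by
  have hMr : (0 : ℝ) < M := by exact_mod_cast hM
  set a : ℕ → ℝ := fun p => if 0 ≤ ft m (ξ p) then 1 else -1 with ha
  have ha1 : ∀ p, a p * ft m (ξ p) = |ft m (ξ p)| := by
    intro p
    simp only [ha]
    split_ifs with h
    · rw [abs_of_nonneg h, one_mul]
    · rw [abs_of_neg (not_le.mp h)]; ring
  have ha2 : ∀ p q, |a p * a q| = 1 := by
    intro p q
    simp only [ha]
    split_ifs <;> simp
  have hmul : ∀ p q (y : ℝ), a p * a q * y ≤ |y| := by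
    intro p q y
    refine (le_abs_self _).trans (le_of_eq ?_)
    rw [abs_mul, ha2, one_mul]
  have hT := tf_cont M a ξ
  have ht : 0 < (M * c / 2) ^ 2 := by positivity
  refine ⟨Set.Icc (-3) 3 ∩ {x | M * c / 2 ≤ tf M a ξ x},
    measurableSet_Icc.inter (measurableSet_le (by fun_prop) hT.measurable), ?_, ?_⟩
  · set l := volume.restrict (Set.Icc (-3 : ℝ) 3) with hl
    have hl6 : l.real Set.univ = 6 := by
      rw [hl, measureReal_restrict_apply_univ, Real.volume_real_Icc]; norm_num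
    have hsec : ∫ x, tf M a ξ x ^ 2 ∂l ≤ M * 6 + M ^ 2 * (2 / M) := by
      rw [second_moment]
      apply double_sum_le (by positivity)
      · intro p _
        have e1 := hmul p p (ft l (ξ p + ξ p))
        have e2 := hmul p p (ft l (ξ p - ξ p))
        have e3 := abs_ft_le l (ξ p + ξ p)
        have e4 := abs_ft_le l (ξ p - ξ p)
        linarith
      · intro p hp q hq hpq
        obtain ⟨g1, g2⟩ := h3 p hp q hq hpq
        have e1 := hmul p q (ft l (ξ p + ξ q))
        have e2 := hmul p q (ft l (ξ p - ξ q))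
        have e3 := ft_leb (abs_pos.mp (hMr.trans_le g1))
        have e4 := ft_leb (abs_pos.mp (hMr.trans_le g2))
        have e5 : 2 / |ξ p + ξ q| ≤ 2 / M := by gcongr
        have e6 : 2 / |ξ p - ξ q| ≤ 2 / M := by gcongr
        rw [← hl] at e3 e4
        linarith
    have hmk := mul_meas_ge_le_integral_of_nonneg (μ := l) (f := fun x => tf M a ξ x ^ 2)
      (ae_of_all _ fun x => sq_nonneg _) (tf_sq_int l M a ξ) ((M * c / 2) ^ 2)
    have hle : l.real {x | (M * c / 2) ^ 2 ≤ tf M a ξ x ^ 2} ≤ 32 / (M * c ^ 2) := by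
      rw [le_div_iff₀ (by positivity)]
      have e1 : (M : ℝ) ^ 2 * (2 / M) = 2 * M := by field_simp
      rw [e1] at hsec
      have e2 : M * (l.real {x | (M * c / 2) ^ 2 ≤ tf M a ξ x ^ 2} * (M * c ^ 2)) ≤ M * 32 := by
        nlinarith
      exact le_of_mul_le_mul_left e2 hMr
    calc volume (Set.Icc (-3) 3 ∩ {x | M * c / 2 ≤ tf M a ξ x})
        ≤ volume ({x | (M * c / 2) ^ 2 ≤ tf M a ξ x ^ 2} ∩ Set.Icc (-3) 3) := by
          apply measure_mono
          rintro x ⟨hx1, hx2⟩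
          have hx3 : M * c / 2 ≤ tf M a ξ x := hx2
          exact ⟨pow_le_pow_left₀ (by positivity) hx3 2, hx1⟩
      _ = l {x | (M * c / 2) ^ 2 ≤ tf M a ξ x ^ 2} := by
          rw [hl, Measure.restrict_apply' measurableSet_Icc]
      _ ≤ _ := by
          rw [← ofReal_measureReal]
          exact ENNReal.ofReal_le_ofReal hle
  · set μ := ∑ p ∈ range M, a p * ft m (ξ p) with hμ
    have hμ1 : M * c ≤ μ := by
      have : ∑ p ∈ range M, c ≤ μ := sum_le_sum fun p hp => by
        rw [ha1]; exact h1 p (mem_range.mp hp)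
      rwa [sum_const, card_range, nsmul_eq_mul] at this
    have hint : Integrable (fun x => (tf M a ξ x - μ) ^ 2) m := by
      have : (fun x => (tf M a ξ x - μ) ^ 2)
          = fun x => tf M a ξ x ^ 2 - 2 * μ * tf M a ξ x + μ ^ 2 := by ext x; ring
      rw [this]
      exact ((tf_sq_int m M a ξ).sub ((tf_int m M a ξ).const_mul _)).add (integrable_const _)
    have hvar : ∫ x, (tf M a ξ x - μ) ^ 2 ∂m = ∫ x, tf M a ξ x ^ 2 ∂m - μ ^ 2 := by
      have : (fun x => (tf M a ξ x - μ) ^ 2)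
          = fun x => tf M a ξ x ^ 2 - 2 * μ * tf M a ξ x + μ ^ 2 := by ext x; ring
      have hI : Integrable (fun x => tf M a ξ x ^ 2 - 2 * μ * tf M a ξ x) m :=
        (tf_sq_int m M a ξ).sub ((tf_int m M a ξ).const_mul _)
      rw [this, integral_add hI (integrable_const _),
        integral_sub (tf_sq_int m M a ξ) ((tf_int m M a ξ).const_mul _),
        integral_const_mul, first_moment, ← hμ]
      simp only [integral_const, probReal_univ, smul_eq_mul]
      ring
    have hvar2 : ∫ x, (tf M a ξ x - μ) ^ 2 ∂m ≤ M * 2 + M ^ 2 * η := by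
      rw [hvar, second_moment, sq μ, hμ, sum_mul_sum, ← sum_sub_distrib]
      simp_rw [← sum_sub_distrib]
      apply double_sum_le hη
      · intro p _
        have e1 := hmul p p (ft m (ξ p + ξ p))
        have e2 := hmul p p (ft m (ξ p - ξ p))
        have e3 := abs_ft_le m (ξ p + ξ p)
        have e4 := abs_ft_le m (ξ p - ξ p)
        rw [probReal_univ] at e3 e4
        nlinarith [mul_self_nonneg (a p * ft m (ξ p))]
      · intro p hp q hq hpq
        obtain ⟨g1, g2⟩ := h2 p hp q hq hpq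
        have e1 := hmul p q (ft m (ξ p + ξ q) - ft m (ξ p) * ft m (ξ q))
        have e2 := hmul p q (ft m (ξ p - ξ q) - ft m (ξ p) * ft m (ξ q))
        nlinarith
    have hmk := mul_meas_ge_le_integral_of_nonneg (μ := m) (f := fun x => (tf M a ξ x - μ) ^ 2)
      (ae_of_all _ fun x => sq_nonneg _) hint ((M * c / 2) ^ 2)
    have hle : m.real {x | (M * c / 2) ^ 2 ≤ (tf M a ξ x - μ) ^ 2}
        ≤ 8 / (M * c ^ 2) + 4 * η / c ^ 2 := by
      have e1 : 8 / (M * c ^ 2) + 4 * η / c ^ 2 = (M * 2 + M ^ 2 * η) / (M * c / 2) ^ 2 := by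
        field_simp; ring
      rw [e1, le_div_iff₀ ht]
      linarith
    calc m (Set.Icc (-3) 3 ∩ {x | M * c / 2 ≤ tf M a ξ x})ᶜ
        ≤ m ((Set.Icc (-3) 3)ᶜ ∪ {x | (M * c / 2) ^ 2 ≤ (tf M a ξ x - μ) ^ 2}) := by
          apply measure_mono
          intro x hx
          by_cases hx1 : x ∈ Set.Icc (-3 : ℝ) 3
          · right
            have hx2 : tf M a ξ x < M * c / 2 := by
              by_contra hc'
              exact hx ⟨hx1, not_lt.mp hc'⟩
            have hx3 : M * c / 2 ≤ μ - tf M a ξ x := by linarith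
            have := pow_le_pow_left₀ (by positivity) hx3 2
            show (M * c / 2) ^ 2 ≤ (tf M a ξ x - μ) ^ 2
            nlinarith
          · left; exact hx1
      _ ≤ m (Set.Icc (-3) 3)ᶜ + m {x | (M * c / 2) ^ 2 ≤ (tf M a ξ x - μ) ^ 2} :=
          measure_union_le _ _
      _ ≤ _ := by
          rw [hm, zero_add, ← ofReal_measureReal]
          exact ENNReal.ofReal_le_ofReal hle

lemma singular_of_eps (m : Measure ℝ) [IsProbabilityMeasure m]
    (h : ∀ ε : ℝ, 0 < ε → ∃ S : Set ℝ, MeasurableSet S ∧ volume S ≤ ENNReal.ofReal ε ∧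
      m Sᶜ ≤ ENNReal.ofReal ε) : IsSingularProb m := by
  choose S hS1 hS2 hS3 using fun j : ℕ => h ((1 / 2) ^ j) (by positivity)
  have hsum : ∑' j : ℕ, ENNReal.ofReal ((1 / 2 : ℝ) ^ j) ≠ ⊤ := by
    rw [← ENNReal.ofReal_tsum_of_nonneg (fun _ => by positivity) summable_geometric_two]
    exact ENNReal.ofReal_ne_top
  refine ⟨measure_univ, limsup S atTop, MeasurableSet.measurableSet_limsup hS1, ?_, ?_⟩
  · exact measure_limsup_atTop_eq_zero (ne_top_of_le_ne_top hsum (ENNReal.tsum_le_tsum hS2))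
  · rw [← prob_compl_eq_zero_iff (MeasurableSet.measurableSet_limsup hS1)]
    have h1 := ae_eventually_notMem (μ := m) (s := fun j => (S j)ᶜ)
      (ne_top_of_le_ne_top hsum (ENNReal.tsum_le_tsum hS3))
    have h2 : ∀ᵐ x ∂m, x ∈ limsup S atTop := by
      filter_upwards [h1] with x hx
      rw [mem_limsup_iff_frequently_mem]
      exact (hx.mono fun n hn => not_not.mp hn).frequently
    exact h2

end Vale.Agent.P105
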