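import Mathlib

namespace Vale.Agent.P105

open MeasureTheory

/-- The law of one fair sign: mass one half at `1` and mass one half at `-1`. -/
noncomputable def coin : Measure ℝ :=
  (2⁻¹ : ENNReal) • Measure.dirac (1 : ℝ) + (2⁻¹ : ENNReal) • Measure.dirac (-1 : ℝ)

/-- The Bernoulli convolution: the law of `∑ e n * lam ^ n` for independent fair signs `e n`. -/
noncomputable def nu (lam : ℝ) : Measure ℝ :=
  (Measure.infinitePi (fun _ : ℕ => coin)).map (fun e : ℕ → ℝ => ∑' n : ℕ, e n * lam ^ n)

/-- A probability measure on the line that gives full mass to a Borel set of Lebesgue measure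
zero. -/
def IsSingularProb (m : Measure ℝ) : Prop :=
  m Set.univ = 1 ∧ ∃ S : Set ℝ, MeasurableSet S ∧ volume S = 0 ∧ m S = 1

/-- Pisot numbers: real algebraic integers above one whose other conjugates have modulus
below one. -/
def IsPisot (b : ℝ) : Prop :=
  IsIntegral ℤ b ∧ 1 < b ∧
    ∀ z : ℂ, Polynomial.aeval z (minpoly ℚ b) = 0 → z ≠ (b : ℂ) → ‖z‖ < 1

end Vale.Agent.P105
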