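import Vale.Agent.P105.Defs
import Vale.Agent.P105.Basic

namespace Vale.Agent.P105

open Real Finset MeasureTheory ProbabilityTheory Filter

instance coin_prob : IsProbabilityMeasure coin := by
  constructor
  simp [coin, ENNReal.inv_two_add_inv_two]

/-- The law of the sequence of signs. -/
noncomputable abbrev PP : Measure (ℕ → ℝ) := Measure.infinitePi (fun _ : ℕ => coin)

lemma ae_coin : ∀ᵐ x ∂coin, |x| ≤ 1 := by
  have hm : MeasurableSet {x : ℝ | |x| ≤ 1} := measurableSet_le (by fun_prop) (by fun_prop)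
  rw [coin, ae_add_measure_iff]
  constructor
  · apply Measure.ae_smul_measure
    rw [ae_dirac_iff hm]; simp
  · apply Measure.ae_smul_measure
    rw [ae_dirac_iff hm]; simp

lemma ae_sign : ∀ᵐ e ∂PP, ∀ n, |e n| ≤ 1 := by
  rw [ae_all_iff]
  intro n
  exact (measurePreserving_eval_infinitePi (fun _ : ℕ => coin) n).quasiMeasurePreserving.ae ae_coin

lemma summable_of_sign {lam : ℝ} (h0 : 0 ≤ lam) (h1 : lam < 1) {e : ℕ → ℝ}
    (he : ∀ n, |e n| ≤ 1) : Summable fun n => e n * lam ^ n := by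
  refine Summable.of_norm_bounded (summable_geometric_of_lt_one h0 h1) fun n => ?_
  rw [Real.norm_eq_abs, abs_mul, abs_of_nonneg (pow_nonneg h0 n)]
  have := he n
  have := pow_nonneg h0 n
  nlinarith

lemma ae_tendsto {lam : ℝ} (h0 : 0 ≤ lam) (h1 : lam < 1) :
    ∀ᵐ e ∂PP, Tendsto (fun K => ∑ n ∈ range K, e n * lam ^ n) atTop
      (nhds (∑' n : ℕ, e n * lam ^ n)) := by
  filter_upwards [ae_sign] with e he
  exact (summable_of_sign h0 h1 he).hasSum.tendsto_sum_nat

lemma aemeas {lam : ℝ} (h0 : 0 ≤ lam) (h1 : lam < 1) :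
    AEMeasurable (fun e : ℕ → ℝ => ∑' n : ℕ, e n * lam ^ n) PP :=
  aemeasurable_of_tendsto_metrizable_ae atTop
    (fun K => (by fun_prop : Measurable fun e : ℕ → ℝ => ∑ n ∈ range K, e n * lam ^ n).aemeasurable)
    (ae_tendsto h0 h1)

lemma nu_prob {lam : ℝ} (h0 : 0 ≤ lam) (h1 : lam < 1) : IsProbabilityMeasure (nu lam) :=
  Measure.isProbabilityMeasure_map (aemeas h0 h1)

lemma nu_supp {lam : ℝ} (h0 : 0 ≤ lam) (h1 : lam ≤ 2 / 3) :
    nu lam (Set.Icc (-3) 3)ᶜ = 0 := by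
  have h2 : lam < 1 := by linarith
  rw [nu, Measure.map_apply_of_aemeasurable (aemeas h0 h2) measurableSet_Icc.compl]
  have : ∀ᵐ e ∂PP, (∑' n : ℕ, e n * lam ^ n) ∈ Set.Icc (-3 : ℝ) 3 := by
    filter_upwards [ae_sign] with e he
    rw [Set.mem_Icc, ← abs_le, ← Real.norm_eq_abs]
    have h3 : ∀ n, ‖e n * lam ^ n‖ ≤ (2 / 3 : ℝ) ^ n := by
      intro n
      rw [Real.norm_eq_abs, abs_mul, abs_of_nonneg (pow_nonneg h0 n)]
      have := he n
      have := pow_nonneg h0 n
      have := pow_le_pow_left₀ h0 h1 n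
      nlinarith
    have h4 := tsum_of_norm_bounded
      (hasSum_geometric_of_lt_one (r := (2 / 3 : ℝ)) (by norm_num) (by norm_num)) h3
    linarith
  exact this

lemma integral_coin (c : ℝ) :
    ∫ x, Complex.exp ((c * x : ℝ) * Complex.I) ∂coin = (cos c : ℝ) := by
  rw [coin, integral_add_measure, integral_smul_measure, integral_smul_measure, integral_dirac,
    integral_dirac]
  · simp only [ENNReal.toReal_inv, ENNReal.toReal_ofNat, mul_one, mul_neg, Complex.real_smul]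
    push_cast
    rw [Complex.cos]
    ring
  · exact (integrable_dirac (by simp)).smul_measure (by simp)
  · exact (integrable_dirac (by simp)).smul_measure (by simp)

lemma integral_partial (lam ξ : ℝ) (K : ℕ) :
    ∫ e, cos (ξ * ∑ n ∈ range K, e n * lam ^ n) ∂PP = ∏ n ∈ range K, cos (ξ * lam ^ n) := by
  have hind : iIndepFun (fun (i : Fin K) (e : ℕ → ℝ) => e i) PP :=
    (iIndepFun_infinitePi (P := fun _ : ℕ => coin) (X := fun _ x => x)
      (fun _ => measurable_id)).precomp Fin.val_injective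
  have h1 := iIndepFun.integral_fun_prod_comp (𝕜 := ℂ) (ι := Fin K) (𝓧 := fun _ => ℝ)
    (f := fun (i : Fin K) (x : ℝ) => Complex.exp ((ξ * lam ^ (i : ℕ) * x : ℝ) * Complex.I)) hind
    (fun i => (measurable_pi_apply (i : ℕ)).aemeasurable) (fun i => by fun_prop)
  have h2 : ∀ i : Fin K, ∫ e, Complex.exp ((ξ * lam ^ (i : ℕ) * e i : ℝ) * Complex.I) ∂PP
      = (cos (ξ * lam ^ (i : ℕ)) : ℝ) := by
    intro i
    rw [← integral_coin, ← (measurePreserving_eval_infinitePi (fun _ : ℕ => coin) i).map_eq,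
      integral_map (measurable_pi_apply _).aemeasurable (by fun_prop)]
  simp_rw [h2] at h1
  have h3 : ∀ e : ℕ → ℝ, cos (ξ * ∑ n ∈ range K, e n * lam ^ n)
      = (∏ i : Fin K, Complex.exp ((ξ * lam ^ (i : ℕ) * e i : ℝ) * Complex.I)).re := by
    intro e
    rw [← Complex.exp_sum, ← Finset.sum_mul, ← Complex.ofReal_sum, Complex.exp_ofReal_mul_I_re,
      Fin.sum_univ_eq_sum_range (fun n => ξ * lam ^ n * e n), mul_sum]
    congr 1
    exact sum_congr rfl fun _ _ => by ring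
  simp_rw [h3]
  have h4 : Integrable (fun e : ℕ → ℝ =>
      ∏ i : Fin K, Complex.exp ((ξ * lam ^ (i : ℕ) * e i : ℝ) * Complex.I)) PP := by
    refine Integrable.of_bound (Measurable.aestronglyMeasurable (by fun_prop)) 1 (ae_of_all _ fun e => ?_)
    rw [norm_prod]
    exact Finset.prod_le_one (fun _ _ => norm_nonneg _)
      (fun i _ => (Complex.norm_exp_ofReal_mul_I _).le)
  have h5 := integral_re h4
  simp only [RCLike.re_to_complex] at h5
  rw [h5, h1, ← Complex.ofReal_prod, Complex.ofReal_re,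
    Fin.prod_univ_eq_prod_range (fun n => cos (ξ * lam ^ n))]

/-- The cosine transform of a measure. -/
noncomputable def ft (m : Measure ℝ) (ξ : ℝ) : ℝ := ∫ x, cos (ξ * x) ∂m

lemma tendsto_ft {lam : ℝ} (h0 : 0 ≤ lam) (h1 : lam < 1) (ξ : ℝ) :
    Tendsto (fun K => ∏ n ∈ range K, cos (ξ * lam ^ n)) atTop (nhds (ft (nu lam) ξ)) := by
  simp_rw [← integral_partial]
  rw [ft, nu, integral_map (aemeas h0 h1) (by fun_prop)]
  refine tendsto_integral_of_dominated_convergence (fun _ => 1)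
    (fun K => (by fun_prop : Measurable fun e : ℕ → ℝ =>
      cos (ξ * ∑ n ∈ range K, e n * lam ^ n)).aestronglyMeasurable)
    (integrable_const _) (fun K => ae_of_all _ fun e => ?_) ?_
  · exact Real.abs_cos_le_one _
  · filter_upwards [ae_tendsto h0 h1] with e he
    exact (Real.continuous_cos.tendsto _).comp (he.const_mul ξ)

lemma ft_lower {lam : ℝ} (h0 : 0 ≤ lam) (h1 : lam < 1) {ξ c : ℝ}
    (h : ∀ K, c ≤ ∏ n ∈ range K, |cos (ξ * lam ^ n)|) : c ≤ |ft (nu lam) ξ| := by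
  refine ge_of_tendsto' (tendsto_ft h0 h1 ξ).abs fun K => ?_
  rw [Finset.abs_prod]
  exact h K

lemma ft_cov {lam : ℝ} (h0 : 0 ≤ lam) (h1 : lam < 1) {ξ ζ η : ℝ}
    (h : ∀ K, ∑ n ∈ range K, |sin (ξ * lam ^ n)| * |sin (ζ * lam ^ n)| ≤ η) :
    |ft (nu lam) (ξ + ζ) - ft (nu lam) ξ * ft (nu lam) ζ| ≤ η := by
  refine le_of_tendsto' ((tendsto_ft h0 h1 (ξ + ζ)).sub
    ((tendsto_ft h0 h1 ξ).mul (tendsto_ft h0 h1 ζ))).abs fun K => ?_
  rw [← prod_mul_distrib]
  refine (abs_prod_sub_le _ _ (fun k => Real.abs_cos_le_one _) (fun k => ?_) K).trans ?_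
  · rw [abs_mul]
    exact mul_le_one₀ (Real.abs_cos_le_one _) (abs_nonneg _) (Real.abs_cos_le_one _)
  · refine le_trans (le_of_eq (sum_congr rfl fun n _ => ?_)) (h K)
    rw [add_mul, cos_add, ← abs_mul, ← abs_neg]
    congr 1; ring

lemma ft_neg (m : Measure ℝ) (ξ : ℝ) : ft m (-ξ) = ft m ξ := by
  simp [ft]

lemma abs_ft_le (m : Measure ℝ) [IsFiniteMeasure m] (ξ : ℝ) : |ft m ξ| ≤ m.real Set.univ := by
  have := norm_integral_le_of_norm_le_const (μ := m) (f := fun x => cos (ξ * x)) (C := 1)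
    (ae_of_all _ fun x => Real.abs_cos_le_one _)
  simpa [ft] using this

lemma ft_leb {ξ : ℝ} (hξ : ξ ≠ 0) :
    |ft (volume.restrict (Set.Icc (-3 : ℝ) 3)) ξ| ≤ 2 / |ξ| := by
  rw [ft, integral_Icc_eq_integral_Ioc, ← intervalIntegral.integral_of_le (by norm_num),
    intervalIntegral.integral_comp_mul_left (fun x => cos x) hξ, integral_cos, smul_eq_mul, abs_mul,
    abs_inv, div_eq_inv_mul]
  gcongr
  have := Real.abs_sin_le_one (ξ * 3)
  have := Real.abs_sin_le_one (ξ * (-3))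
  exact (abs_sub _ _).trans (by linarith)

end Vale.Agent.P105
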