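import Vale.Agent.P105.State

namespace Vale.Agent.P105

open Real Finset

variable {β : ℝ} {w : ℂ}

lemma St.mono {A B : ℝ} {Z : ℂ} {L : ℕ} {τ z b b' : ℝ} (h : St β w A B Z L τ z b)
    (hb : b ≤ b') : St β w A B Z L τ z b' :=
  ⟨h.int, h.A1, h.A2, h.L1, h.B1, h.Z1, fun i => (h.mA i).trans hb, fun i => (h.mB i).trans hb⟩

/-- A state with all the bounds needed to continue. -/
def Good (β : ℝ) (w : ℂ) (bs D R E : ℝ) : Prop :=
  ∃ (A B : ℝ) (Z : ℂ) (L : ℕ) (d : ℝ), 2 ≤ L ∧ St β w A B Z L d d (bs - 6 * d) ∧ En β A E ∧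
    d ≤ D ∧ L * d ≤ R

lemma Good.mono {bs D R E D' R' E' : ℝ} (h : Good β w bs D R E) (hD : D ≤ D') (hR : R ≤ R')
    (hE : E ≤ E') : Good β w bs D' R' E' := by
  obtain ⟨A, B, Z, L, d, h1, h2, h3, h4, h5⟩ := h
  exact ⟨A, B, Z, L, d, h1, h2, fun K => (h3 K).trans hE, h4.trans hD, h5.trans hR⟩

lemma pow_bound (hβ : 3 / 2 ≤ β) {τ z c : ℝ} {L n k Q : ℕ} (hτ0 : 0 ≤ τ) (hτ : τ ≤ z)
    (hQ : 1 ≤ Q) (hk : (Q : ℝ) ≤ β ^ k) (hc : 1 ≤ c) :
    τ * β ^ (L + n) ≤ z * (c / Q) * β ^ (L + n + k) := by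
  have hQr : (0 : ℝ) < Q := by exact_mod_cast hQ
  have hp : 0 < β ^ (L + n) := pow_pos (by linarith) _
  rw [pow_add β (L + n) k]
  have h1 : 1 ≤ c / Q * β ^ k := by
    rw [div_mul_eq_mul_div, le_div_iff₀ hQr]
    nlinarith
  calc τ * β ^ (L + n) ≤ z * β ^ (L + n) * 1 := by nlinarith
    _ ≤ z * β ^ (L + n) * (c / Q * β ^ k) := by
        apply mul_le_mul_of_nonneg_left h1
        have : 0 ≤ z := hτ0.trans hτ
        positivity
    _ = _ := by ring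

lemma first (hβ : 3 / 2 ≤ β) (hw : ‖w‖ = 1) {A B : ℝ} {Z : ℂ} {L : ℕ} {τ z b bs η : ℝ}
    (h : St β w A B Z L τ z b) (hL : 2 ≤ L) (hτ : τ ≤ z) (hη : 0 < η)
    (hb : b + τ + 8 * η ≤ bs) : ∃ E, Good β w bs η (200 * L * z) E := by
  have hτ0 := h.tau_pos hβ
  have hz : 0 < z := hτ0.trans_le hτ
  have hLr : (2 : ℝ) ≤ L := by exact_mod_cast hL
  obtain ⟨Q0, hQ0⟩ := exists_nat_ge (28 * L * z / η)
  set Q := Q0 + L with hQ
  have hQL : L ≤ Q := by omega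
  have hQ1 : 1 ≤ Q := by omega
  have hQr : (0 : ℝ) < Q := by exact_mod_cast hQ1
  have hQL' : (L : ℝ) ≤ Q := by exact_mod_cast hQL
  have hQ2 : 28 * L * z ≤ η * Q := by
    rw [div_le_iff₀ hη] at hQ0
    have : (Q0 : ℝ) ≤ Q := by exact_mod_cast (by omega : Q0 ≤ Q)
    nlinarith
  have hk : (Q : ℝ) ≤ β ^ (2 * Q) := by
    have h1 : (Q : ℝ) ≤ 2 ^ Q := by exact_mod_cast (Nat.lt_two_pow_self).le
    rw [pow_mul]
    exact h1.trans (pow_le_pow_left₀ (by norm_num) (by nlinarith) _)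
  obtain ⟨n, hn, hcase⟩ := dirichlet hw (m := 2 * L) (Q := Q) (by omega) hQ1
  rcases hcase with ⟨hnQ, hκ⟩ | ⟨hnm, hκ⟩
  · have hs := h.step hβ hw hn (by omega) hκ
      (pow_bound hβ hτ0.le hτ hQ1 hk (c := 7) (by norm_num))
    have hd : z * (7 / Q) ≤ η := by
      rw [mul_div_assoc', div_le_iff₀ hQr]; nlinarith
    refine ⟨_, _, _, _, _, _, by omega, hs.mono (by linarith), en_init hβ _, hd, ?_⟩
    have h1 : ((L + n + 2 * Q : ℕ) : ℝ) ≤ 4 * Q := by exact_mod_cast (by omega)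
    calc ((L + n + 2 * Q : ℕ) : ℝ) * (z * (7 / Q)) ≤ 4 * Q * (z * (7 / Q)) := by gcongr
      _ = 28 * z := by field_simp; ring
      _ ≤ _ := by nlinarith
  · have hκ' : ‖w ^ n - 1‖ ≤ (28 * L) / Q := by
      refine hκ.trans (le_of_eq ?_); push_cast; ring
    have hs := h.step hβ hw hn (by omega) hκ'
      (pow_bound hβ hτ0.le hτ hQ1 hk (c := 28 * L) (by linarith))
    have hd : z * (28 * L / Q) ≤ η := by
      rw [mul_div_assoc', div_le_iff₀ hQr]; nlinarith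
    refine ⟨_, _, _, _, _, _, by omega, hs.mono (by linarith), en_init hβ _, hd, ?_⟩
    have h1 : ((L + n + 2 * Q : ℕ) : ℝ) ≤ 7 * Q := by exact_mod_cast (by omega)
    calc ((L + n + 2 * Q : ℕ) : ℝ) * (z * (28 * L / Q)) ≤ 7 * Q * (z * (28 * L / Q)) := by gcongr
      _ = 196 * L * z := by field_simp; ring
      _ ≤ _ := by nlinarith

lemma Good.step (hβ : 3 / 2 ≤ β) (hw : ‖w‖ = 1) {bs D R R' E : ℝ} (h : Good β w bs D R E)
    (hR1 : 1 ≤ R') (hR : R ≤ R') (hD : 56 * R' * D ≤ 1) :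
    Good β w bs (28 * R * D ^ 2) (224 * R' ^ 2 * D) (2.2 * E + 200) := by
  obtain ⟨A, B, Z, L, d, hL, h, hE, hdD, hr⟩ := h
  have hd0 := h.tau_pos hβ
  have hLr : (2 : ℝ) ≤ L := by exact_mod_cast hL
  have hRd : 56 * R' * d ≤ 1 := by nlinarith
  have hd1 : d ≤ 1 / 56 := by nlinarith
  have hr' : L * d ≤ R' := hr.trans hR
  set Q := ⌈1 / d ^ 2⌉₊ with hQ
  have hd2 : 0 < d ^ 2 := by positivity
  have hQa : 1 ≤ Q * d ^ 2 := by
    have := Nat.le_ceil (1 / d ^ 2)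
    rwa [div_le_iff₀ hd2] at this
  have hQb : Q * d ^ 2 ≤ 2 := by
    have h1 := (Nat.ceil_lt_add_one (by positivity : 0 ≤ 1 / d ^ 2)).le
    have h2 : (Q : ℝ) * d ^ 2 ≤ (1 / d ^ 2 + 1) * d ^ 2 := by gcongr
    have h3 : (1 / d ^ 2 + 1) * d ^ 2 = 1 + d ^ 2 := by field_simp
    nlinarith
  have hQr : (0 : ℝ) < Q := by
    by_contra hc
    push Not at hc
    nlinarith
  have hQ1 : 1 ≤ Q := by exact_mod_cast hQr
  have hQi : 1 / (Q : ℝ) ≤ d ^ 2 := by rw [div_le_iff₀ hQr]; linarith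
  have hk : (Q : ℝ) ≤ β ^ (3 * L) := by
    have h1 := h.L1
    have h2 : β ^ (2 * L + 2) ≤ β ^ (3 * L) := pow_le_pow_right₀ (by linarith) (by omega)
    refine le_trans ?_ h2
    have h3 : β ^ (2 * L + 2) = (β ^ L) ^ 2 * β ^ 2 := by ring
    have h4 : 1 ≤ (d * β ^ L) ^ 2 := one_le_pow₀ h1
    have h5 : 2 ≤ β ^ 2 := by nlinarith
    have h6 : Q * d ^ 2 ≤ (β ^ L) ^ 2 * β ^ 2 * d ^ 2 := by nlinarith
    rw [h3]
    exact le_of_mul_le_mul_right h6 hd2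
  have hR0 : 0 ≤ R := le_trans (by positivity) hr
  have hfin : 28 * (L * d) * d ^ 2 ≤ 28 * R * D ^ 2 := by gcongr
  have hhalf : 28 * (L * d) * d ^ 2 ≤ d / 2 := by nlinarith
  obtain ⟨n, hn, hcase⟩ := dirichlet hw (m := 2 * L) (Q := Q) (by omega) hQ1
  rcases hcase with ⟨hnQ, hκ⟩ | ⟨hnm, hκ⟩
  · have hs := h.step hβ hw hn (by omega) hκ
      (pow_bound hβ hd0.le le_rfl hQ1 hk (c := 7) (by norm_num))
    have hnr : (n : ℝ) ≤ Q := by exact_mod_cast hnQ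
    have hd : d * (7 / Q) ≤ 7 * d * d ^ 2 := by
      calc d * (7 / Q) = 7 * d * (1 / Q) := by ring
        _ ≤ _ := by gcongr
    have hd' : d * (7 / Q) ≤ 28 * (L * d) * d ^ 2 := by nlinarith [mul_pos hd0 hd2]
    refine ⟨_, _, _, _, _, by omega, hs.mono (by linarith),
      h.en_step hβ hw hE hn (by linarith) (by nlinarith), hd'.trans hfin, ?_⟩
    have h1 : ((L + n + 3 * L : ℕ) : ℝ) ≤ 4 * L + Q := by exact_mod_cast (by omega)
    calc ((L + n + 3 * L : ℕ) : ℝ) * (d * (7 / Q)) ≤ (4 * L + Q) * (d * (7 / Q)) := by gcongr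
      _ = 4 * L * (d * (7 / Q)) + 7 * d := by field_simp
      _ ≤ 4 * L * (7 * d * d ^ 2) + 7 * d := by gcongr
      _ = 28 * (L * d) * d ^ 2 + 7 * d := by ring
      _ ≤ 224 * 1 ^ 2 * d := by linarith
      _ ≤ _ := by gcongr
  · have hκ' : ‖w ^ n - 1‖ ≤ (28 * L) / Q := by
      refine hκ.trans (le_of_eq ?_); push_cast; ring
    have hs := h.step hβ hw hn (by omega) hκ'
      (pow_bound hβ hd0.le le_rfl hQ1 hk (c := 28 * L) (by linarith))
    have hnr : (n : ℝ) ≤ 4 * L := by exact_mod_cast (by omega)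
    have hd' : d * (28 * L / Q) ≤ 28 * (L * d) * d ^ 2 := by
      calc d * (28 * L / Q) = 28 * (L * d) * (1 / Q) := by ring
        _ ≤ _ := by gcongr
    have hnd : n * d ^ 2 ≤ 2 := by
      calc n * d ^ 2 ≤ 4 * L * d ^ 2 := by gcongr
        _ = 4 * (L * d) * d := by ring
        _ ≤ 4 * R' * d := by gcongr
        _ ≤ 2 := by linarith
    refine ⟨_, _, _, _, _, by omega, hs.mono (by linarith),
      h.en_step hβ hw hE hn (by linarith) hnd, hd'.trans hfin, ?_⟩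
    have h1 : ((L + n + 3 * L : ℕ) : ℝ) ≤ 8 * L := by exact_mod_cast (by omega)
    calc ((L + n + 3 * L : ℕ) : ℝ) * (d * (28 * L / Q)) ≤ (8 * L) * (28 * (L * d) * d ^ 2) := by
          gcongr
      _ = 224 * (L * d) ^ 2 * d := by ring
      _ ≤ _ := by gcongr

lemma Good.iter (hβ : 3 / 2 ≤ β) (hw : ‖w‖ = 1) {bs E : ℝ}
    (h : Good β w bs (exp (-(12 * 1)) / 300) (exp (-(5 * 1))) E) (j : ℕ) :
    Good β w bs (exp (-(12 * 2.4 ^ j)) / 300) (exp (-(5 * 2.4 ^ j)))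
      (2.2 ^ j * (E + 200) - 200) := by
  induction j with
  | zero => simpa using h
  | succ j ih =>
    have hu : (0 : ℝ) ≤ 2.4 ^ j := by positivity
    set u : ℝ := 2.4 ^ j with hu'
    have h1 : exp (-(5 * u)) ≤ 1 := exp_le_one_iff.mpr (by linarith)
    have h2 : exp (-(12 * u)) ≤ 1 := exp_le_one_iff.mpr (by linarith)
    refine (ih.step hβ hw le_rfl h1 (by linarith)).mono ?_ ?_ ?_
    · have e1 : 28 * exp (-(5 * u)) * (exp (-(12 * u)) / 300) ^ 2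
          = 28 / 300 * exp (-(29 * u)) / 300 := by
        have : exp (-(29 * u)) = exp (-(5 * u)) * exp (-(12 * u)) * exp (-(12 * u)) := by
          rw [← exp_add, ← exp_add]; congr 1; ring
        rw [this]; ring
      rw [e1, pow_succ, ← hu']
      have h3 : exp (-(29 * u)) ≤ exp (-(12 * (u * 2.4))) := exp_le_exp.mpr (by linarith)
      have h4 := exp_pos (-(29 * u))
      linarith
    · rw [pow_succ (2.4 : ℝ), ← hu']
      have h3 : exp (-(12 * u)) = exp (-(5 * (u * 2.4))) := by congr 1; ring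
      have h4 := exp_pos (-(12 * u))
      rw [← h3]
      linarith
    · rw [pow_succ]
      linarith

/-- States with tiny parameters compared with the exponential of the energy. -/
lemma exists_good (hβ : 3 / 2 ≤ β) (hw : ‖w‖ = 1) {A B : ℝ} {Z : ℂ} {b : ℝ} (hb : b < 1 / 2)
    (hint : ∀ i : ℤ, ∃ k : ℤ, A * β ^ i + B * β ^ (-i) + 2 * (Z * w ^ i).re = k)
    (hA : 1 / 5 ≤ |A|) (hB : |B| ≤ 1) (mA : ∀ i : ℤ, dn (A * β ^ i) ≤ b)
    (mB : ∀ i : ℤ, dn (B * β ^ (-i)) ≤ b) :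
    ∃ bs : ℝ, bs < 1 / 2 ∧ ∀ C ε : ℝ, 0 ≤ C → 0 < ε →
      ∃ E, Good β w bs 1 (ε * exp (-(C * E))) E := by
  set g := (1 / 2 - b) / 4 with hg
  have hg0 : 0 < g := by linarith
  have hb0 : 0 ≤ b := (dn_nonneg _).trans (mA 0)
  refine ⟨b + 2 * g, by linarith, fun C ε hC hε => ?_⟩
  obtain ⟨L0, hL0⟩ := pow_unbounded_of_one_lt ((|A| + 1) / g) (by linarith : 1 < β)
  have hL1 : |A| + 1 ≤ g * β ^ (L0 + 2) := by
    have h1 : β ^ L0 ≤ β ^ (L0 + 2) := pow_le_pow_right₀ (by linarith) (by omega)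
    rw [div_lt_iff₀ hg0] at hL0
    nlinarith
  have h0 : St β w A B Z (L0 + 2) g (‖Z‖ + 1) b :=
    ⟨hint, hA, by linarith, by linarith [abs_nonneg A], hB, by linarith, mA, mB⟩
  set R0 : ℝ := 200 * ((L0 + 2 : ℕ) : ℝ) * (‖Z‖ + 1) with hR0
  have hR1 : 1 ≤ R0 := by
    have : (2 : ℝ) ≤ ((L0 + 2 : ℕ) : ℝ) := by exact_mod_cast (by omega)
    have := norm_nonneg Z
    nlinarith
  set x := exp (-(12 * 1 : ℝ)) with hx
  have hx0 : 0 < x := exp_pos _
  have hx1 : x ≤ 1 := exp_le_one_iff.mpr (by norm_num)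
  have hx5 : x ≤ exp (-(5 * 1 : ℝ)) := exp_le_exp.mpr (by norm_num)
  set η := min (g / 8) (x / (300 * R0 ^ 2)) with hη
  have hη0 : 0 < η := lt_min (by positivity) (by positivity)
  have hη1 : η ≤ g / 8 := min_le_left _ _
  have hη2 : η * (300 * R0 ^ 2) ≤ x := by
    have := min_le_right (g / 8) (x / (300 * R0 ^ 2))
    rwa [← hη, le_div_iff₀ (by positivity)] at this
  obtain ⟨E0, hE0⟩ := first hβ hw h0 (by omega) (by linarith [norm_nonneg Z]) hη0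
    (bs := b + 2 * g) (by linarith)
  have hR2 : R0 ≤ R0 ^ 2 := by nlinarith
  have hη3 : 300 * R0 * η ≤ x := by nlinarith
  have h1 := (hE0.step hβ hw hR1 le_rfl (by nlinarith)).mono
    (D' := exp (-(12 * 1)) / 300) (R' := exp (-(5 * 1))) (E' := 2.2 * E0 + 200)
    (by
      rw [← hx]
      have h2 : η ≤ 1 / 300 := by nlinarith
      nlinarith) (by nlinarith) le_rfl
  set E1 := 2.2 * E0 + 200 with hE1
  have hE1n : 0 ≤ E1 := by
    obtain ⟨_, _, _, _, _, _, _, h, _⟩ := h1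
    exact h.nonneg
  have t1 : Filter.Tendsto (fun j : ℕ => C * (E1 + 200) * (11 / 12 : ℝ) ^ j) Filter.atTop
      (nhds (C * (E1 + 200) * 0)) :=
    (tendsto_pow_atTop_nhds_zero_of_lt_one (by norm_num) (by norm_num)).const_mul _
  rw [mul_zero] at t1
  have t2 : Filter.Tendsto (fun j : ℕ => (2.4 : ℝ) ^ j) Filter.atTop Filter.atTop :=
    tendsto_pow_atTop_atTop_of_one_lt (by norm_num)
  obtain ⟨j, hj1, hj2⟩ := ((t1.eventually (gt_mem_nhds one_pos)).and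
    (t2.eventually_ge_atTop (-log ε))).exists
  refine ⟨_, (h1.iter hβ hw j).mono ?_ ?_ le_rfl⟩
  · have : exp (-(12 * 2.4 ^ j)) ≤ (1 : ℝ) :=
      exp_le_one_iff.mpr (by have : (0 : ℝ) ≤ 2.4 ^ j := by positivity
                             linarith)
    linarith
  · rw [← exp_log hε, ← exp_add]
    apply exp_le_exp.mpr
    have e : (2.2 : ℝ) ^ j = (11 / 12) ^ j * 2.4 ^ j := by
      rw [← mul_pow]; norm_num
    have hu : (0 : ℝ) ≤ 2.4 ^ j := by positivity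
    have h2 : C * (2.2 ^ j * (E1 + 200)) ≤ 2.4 ^ j := by
      rw [e]
      nlinarith
    nlinarith

end Vale.Agent.P105
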