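import Vale.Agent.P105.Cheb
import Vale.Agent.P105.Iter

namespace Vale.Agent.P105

open Real Finset MeasureTheory

variable {β : ℝ} {w : ℂ}

lemma freq_eq (hβ : 3 / 2 ≤ β) (A : ℝ) (N n : ℕ) :
    π * (A * β ^ N) * β⁻¹ ^ n = π * (A * β ^ ((N : ℤ) - n)) := by
  rw [zpow_sub₀ (by linarith : β ≠ 0), zpow_natCast, zpow_natCast, inv_pow]
  ring

lemma St.cov {A B : ℝ} {Z : ℂ} {L : ℕ} {d b : ℝ} (h : St β w A B Z L d d b) (hβ : 3 / 2 ≤ β)
    (hw : ‖w‖ = 1) {N N' : ℕ} (hN : N' + 2 * L ≤ N) (K : ℕ) :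
    ∑ n ∈ range K, |sin (π * (A * β ^ N) * β⁻¹ ^ n)| * |sin (π * (A * β ^ N') * β⁻¹ ^ n)|
      ≤ 15 * (N' + L + 1) * d := by
  have hd0 := h.tau_pos hβ
  have hpi : π ^ 2 ≤ 10 := by
    have := Real.pi_lt_d2; have := Real.pi_pos; nlinarith
  have h1 : ∀ n : ℕ, |sin (π * (A * β ^ N) * β⁻¹ ^ n)| * |sin (π * (A * β ^ N') * β⁻¹ ^ n)|
      ≤ 10 * (dn (A * β ^ ((N : ℤ) - n)) * dn (A * β ^ ((N' : ℤ) - n))) := by
    intro n
    rw [freq_eq hβ, freq_eq hβ]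
    have g1 := abs_sin_le (A * β ^ ((N : ℤ) - n))
    have g2 := abs_sin_le (A * β ^ ((N' : ℤ) - n))
    have g3 := dn_nonneg (A * β ^ ((N : ℤ) - n))
    have g4 := dn_nonneg (A * β ^ ((N' : ℤ) - n))
    calc _ ≤ (π * dn (A * β ^ ((N : ℤ) - n))) * (π * dn (A * β ^ ((N' : ℤ) - n))) :=
          mul_le_mul g1 g2 (abs_nonneg _) (by positivity)
      _ = π ^ 2 * (dn (A * β ^ ((N : ℤ) - n)) * dn (A * β ^ ((N' : ℤ) - n))) := by ring
      _ ≤ _ := by gcongr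
  refine (sum_le_sum fun n _ => h1 n).trans ?_
  rw [← mul_sum]
  have h2 : ∑ n ∈ range K, dn (A * β ^ ((N : ℤ) - n)) * dn (A * β ^ ((N' : ℤ) - n))
      ≤ ∑ n ∈ range (N' + L + K), dn (A * β ^ ((N : ℤ) - n)) * dn (A * β ^ ((N' : ℤ) - n)) :=
    sum_le_sum_of_subset_of_nonneg (range_subset_range.mpr (by omega))
      (fun _ _ _ => mul_nonneg (dn_nonneg _) (dn_nonneg _))
  rw [sum_range_add] at h2
  have h3 : ∑ n ∈ range (N' + L), dn (A * β ^ ((N : ℤ) - n)) * dn (A * β ^ ((N' : ℤ) - n))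
      ≤ (N' + L) * (3 * d / 2) := by
    have h4 : ∀ n ∈ range (N' + L),
        dn (A * β ^ ((N : ℤ) - n)) * dn (A * β ^ ((N' : ℤ) - n)) ≤ 3 * d / 2 := by
      intro n hn
      have hn' := mem_range.mp hn
      have g1 := h.fwd hβ hw (i := (N : ℤ) - n) (by omega)
      have g2 := dn_le_half (A * β ^ ((N' : ℤ) - n))
      have g3 := dn_nonneg (A * β ^ ((N : ℤ) - n))
      have g4 := dn_nonneg (A * β ^ ((N' : ℤ) - n))
      nlinarith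
    refine (sum_le_sum h4).trans (le_of_eq ?_)
    rw [sum_const, card_range, nsmul_eq_mul]; push_cast; ring
  have h4 : ∑ k ∈ range K, dn (A * β ^ ((N : ℤ) - ((N' + L + k : ℕ) : ℤ)))
      * dn (A * β ^ ((N' : ℤ) - ((N' + L + k : ℕ) : ℤ))) ≤ 3 * d / 2 := by
    have h5 : ∀ k ∈ range K, dn (A * β ^ ((N : ℤ) - ((N' + L + k : ℕ) : ℤ)))
        * dn (A * β ^ ((N' : ℤ) - ((N' + L + k : ℕ) : ℤ))) ≤ d / 2 * β ^ (-(k : ℤ)) := by
      intro k _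
      have g1 := h.small hβ ((N' : ℤ) - ((N' + L + k : ℕ) : ℤ))
      have e : (N' : ℤ) - ((N' + L + k : ℕ) : ℤ) + L = -(k : ℤ) := by omega
      rw [e] at g1
      have g2 := dn_le_abs (A * β ^ ((N' : ℤ) - ((N' + L + k : ℕ) : ℤ)))
      have g3 := dn_le_half (A * β ^ ((N : ℤ) - ((N' + L + k : ℕ) : ℤ)))
      have g4 := dn_nonneg (A * β ^ ((N' : ℤ) - ((N' + L + k : ℕ) : ℤ)))
      have g5 := dn_nonneg (A * β ^ ((N : ℤ) - ((N' + L + k : ℕ) : ℤ)))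
      nlinarith
    refine (sum_le_sum h5).trans ?_
    rw [← mul_sum]
    have := geom_le hβ K
    nlinarith
  nlinarith

lemma freq_sep {A : ℝ} (hβ : 3 / 2 ≤ β) (hA : 1 / 5 ≤ |A|) {N N' g : ℕ} (hN : N' + g ≤ N) {s : ℝ}
    (hs : |s| ≤ 1) : (β ^ g - 1) / 2 ≤ |π * (A * β ^ N) + s * (π * (A * β ^ N'))| := by
  have h1 : (1 : ℝ) ≤ β := by linarith
  have e : π * (A * β ^ N) + s * (π * (A * β ^ N')) = π * A * (β ^ N + s * β ^ N') := by ring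
  have h2 : β ^ N' * β ^ g ≤ β ^ N := by
    rw [← pow_add]; exact pow_le_pow_right₀ h1 hN
  have h3 : 1 ≤ β ^ N' := one_le_pow₀ h1
  have h4 : 1 ≤ β ^ g := one_le_pow₀ h1
  have h5 := (abs_le.mp hs).1
  have h6 : β ^ g - 1 ≤ β ^ N + s * β ^ N' := by nlinarith
  rw [e, abs_mul, abs_mul, abs_of_pos Real.pi_pos, abs_of_nonneg (by linarith : 0 ≤ β ^ N + s * β ^ N')]
  have h7 : 1 / 2 ≤ π * |A| := by have := Real.pi_gt_three; nlinarith
  nlinarith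

lemma St.big {A B : ℝ} {Z : ℂ} {L : ℕ} {d b : ℝ} (h : St β w A B Z L d d b) (hβ : 3 / 2 ≤ β)
    (hL : 2 ≤ L) (hd1 : d ≤ 1) {M : ℕ} (hM1 : 1 ≤ M) (hMLd : M * (L * d) ≤ 1 / 500) :
    (M : ℝ) ≤ (β ^ (2 * L) - 1) / 2 := by
  have hd0 := h.tau_pos hβ
  have hMr : (1 : ℝ) ≤ M := by exact_mod_cast hM1
  have hLr : (2 : ℝ) ≤ L := by exact_mod_cast hL
  have h1 : 1 ≤ (d * β ^ L) ^ 2 := one_le_pow₀ h.L1
  have h2 : β ^ (2 * L) = (β ^ L) ^ 2 := by ring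
  have h0 : 0 < M * d := by positivity
  have h3 : M * d ≤ 1 / 500 := by nlinarith
  have h5 : 500 * M * d ^ 2 ≤ (β ^ L) ^ 2 * d ^ 2 := by nlinarith
  have h6 : 500 * M ≤ (β ^ L) ^ 2 := le_of_mul_le_mul_right h5 (by positivity)
  rw [h2]
  linarith

lemma St.cov' {A B : ℝ} {Z : ℂ} {L : ℕ} {d b : ℝ} (h : St β w A B Z L d d b) (hβ : 3 / 2 ≤ β)
    (hw : ‖w‖ = 1) (hL : 2 ≤ L) {M : ℕ} {s : ℝ} (hMLd : M * (L * d) ≤ s / 500) :
    ∀ p < M, ∀ q < M, p ≠ q → ∀ K, ∑ n ∈ range K,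
      |sin (π * (A * β ^ (p * (2 * L))) * β⁻¹ ^ n)| * |sin (π * (A * β ^ (q * (2 * L))) * β⁻¹ ^ n)|
        ≤ s := by
  have hd0 := h.tau_pos hβ
  have hLr : (2 : ℝ) ≤ L := by exact_mod_cast hL
  have hcov : ∀ p < M, ∀ q < M, q < p → ∀ K, ∑ n ∈ range K,
      |sin (π * (A * β ^ (p * (2 * L))) * β⁻¹ ^ n)| * |sin (π * (A * β ^ (q * (2 * L))) * β⁻¹ ^ n)|
        ≤ s := by
    intro p _ q hq hqp K
    refine (h.cov hβ hw (by nlinarith) K).trans ?_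
    have hq' : (q : ℝ) + 1 ≤ M := by exact_mod_cast hq
    have hq0 : (0 : ℝ) ≤ q := Nat.cast_nonneg q
    push_cast
    have h1 : (q : ℝ) * (2 * L) + L + 1 ≤ 4 * M * L := by nlinarith
    have h2 : 0 ≤ M * (L * d) := by positivity
    calc 15 * ((q : ℝ) * (2 * L) + L + 1) * d ≤ 15 * (4 * M * L) * d := by gcongr
      _ = 60 * (M * (L * d)) := by ring
      _ ≤ s := by linarith
  intro p hp q hq hpq K
  rcases lt_or_gt_of_ne hpq with h1 | h1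
  · simp_rw [mul_comm (|sin (π * (A * β ^ (p * (2 * L))) * _)|)]
    exact hcov q hq p hp h1 K
  · exact hcov p hp q hq h1 K

lemma St.test_freq {A B : ℝ} {Z : ℂ} {L : ℕ} {d b E : ℝ} (h : St β w A B Z L d d b)
    (hβ : 3 / 2 ≤ β) (hw : ‖w‖ = 1) (hL : 2 ≤ L) (hE : En β A E) (hd1 : d ≤ 1) {C : ℝ}
    (hC : 0 ≤ C) (hcos : ∀ x : ℝ, dn x ≤ b → exp (-(C * dn x ^ 2)) ≤ |cos (π * x)|)
    {M : ℕ} (hM1 : 1 ≤ M) {s : ℝ} (hs0 : 0 < s) (hs1 : s ≤ 1) (hMLd : M * (L * d) ≤ s / 500) :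
    ∃ S : Set ℝ, MeasurableSet S ∧
      volume S ≤ ENNReal.ofReal (32 / (M * exp (-(C * (E + 14))) ^ 2)) ∧
      nu β⁻¹ Sᶜ ≤ ENNReal.ofReal (8 / (M * exp (-(C * (E + 14))) ^ 2)
        + 4 * s / exp (-(C * (E + 14))) ^ 2) := by
  have hl0 : 0 ≤ β⁻¹ := inv_nonneg.mpr (by linarith)
  have hl1 : β⁻¹ ≤ 2 / 3 := by
    rw [inv_le_comm₀ (by linarith) (by norm_num)]; linarith
  have hl2 : β⁻¹ < 1 := by linarith
  haveI := nu_prob hl0 hl2
  have hd0 := h.tau_pos hβ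
  have hcov' := h.cov' hβ hw hL hMLd
  have hbig := h.big hβ hL hd1 hM1 (by linarith)
  refine test (nu β⁻¹) (nu_supp hl0 hl1) hM1
    (ξ := fun p => π * (A * β ^ (p * (2 * L)))) (exp_pos _) hs0.le ?_ ?_ ?_
  · intro p hp
    apply ft_lower hl0 hl2
    intro K
    have h1 : ∀ n ∈ range K, exp (-(C * dn (A * β ^ (((p * (2 * L) : ℕ) : ℤ) - n)) ^ 2))
        ≤ |cos (π * (A * β ^ (p * (2 * L))) * β⁻¹ ^ n)| := by
      intro n _
      rw [freq_eq hβ]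
      exact hcos _ (h.mA _)
    refine le_trans ?_ (prod_le_prod (fun _ _ => (exp_pos _).le) h1)
    rw [← exp_sum, sum_neg_distrib, ← mul_sum]
    apply exp_le_exp.mpr
    have h2 := h.en_fwd hβ hw hE (p * (2 * L)) K
    have hp' : (p : ℝ) ≤ M := by exact_mod_cast hp.le
    have h3 : ((p * (2 * L) : ℕ) : ℝ) * d ^ 2 ≤ 1 := by
      push_cast
      calc (p : ℝ) * (2 * L) * d ^ 2 ≤ M * (2 * L) * d ^ 2 := by gcongr
        _ = 2 * (M * (L * d)) * d := by ring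
        _ ≤ 2 * (s / 500) * 1 := by gcongr
        _ ≤ 1 := by linarith
    have h4 : ∑ k ∈ range K, dn (A * β ^ (((p * (2 * L) : ℕ) : ℤ) - k)) ^ 2 ≤ E + 14 := by
      linarith
    have := mul_le_mul_of_nonneg_left h4 hC
    linarith
  · intro p hp q hq hpq
    refine ⟨ft_cov hl0 hl2 (hcov' p hp q hq hpq), ?_⟩
    have := ft_cov hl0 hl2 (ξ := π * (A * β ^ (p * (2 * L)))) (ζ := -(π * (A * β ^ (q * (2 * L)))))
      (η := s) (fun K => by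
        simp_rw [neg_mul, sin_neg, abs_neg]
        exact hcov' p hp q hq hpq K)
    rwa [ft_neg, ← sub_eq_add_neg] at this
  · intro p _ q _ hpq
    rcases lt_or_gt_of_ne hpq with h1 | h1
    · have g1 := freq_sep hβ h.A1 (N := q * (2 * L)) (N' := p * (2 * L)) (g := 2 * L)
        (by nlinarith) (s := 1) (by simp)
      have g2 := freq_sep hβ h.A1 (N := q * (2 * L)) (N' := p * (2 * L)) (g := 2 * L)
        (by nlinarith) (s := -1) (by simp)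
      rw [one_mul, add_comm] at g1
      rw [neg_one_mul, ← sub_eq_add_neg, abs_sub_comm] at g2
      exact ⟨hbig.trans g1, hbig.trans g2⟩
    · have g1 := freq_sep hβ h.A1 (N := p * (2 * L)) (N' := q * (2 * L)) (g := 2 * L)
        (by nlinarith) (s := 1) (by simp)
      have g2 := freq_sep hβ h.A1 (N := p * (2 * L)) (N' := q * (2 * L)) (g := 2 * L)
        (by nlinarith) (s := -1) (by simp)
      rw [one_mul] at g1
      rw [neg_one_mul, ← sub_eq_add_neg] at g2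
      exact ⟨hbig.trans g1, hbig.trans g2⟩

lemma singular_of_init (hβ : 3 / 2 ≤ β) (hw : ‖w‖ = 1) {A B : ℝ} {Z : ℂ} {b : ℝ} (hb : b < 1 / 2)
    (hint : ∀ i : ℤ, ∃ k : ℤ, A * β ^ i + B * β ^ (-i) + 2 * (Z * w ^ i).re = k)
    (hA : 1 / 5 ≤ |A|) (hB : |B| ≤ 1) (mA : ∀ i : ℤ, dn (A * β ^ i) ≤ b)
    (mB : ∀ i : ℤ, dn (B * β ^ (-i)) ≤ b) : IsSingularProb (nu β⁻¹) := by
  have hl0 : 0 ≤ β⁻¹ := inv_nonneg.mpr (by linarith)
  have hl2 : β⁻¹ < 1 := inv_lt_one_of_one_lt₀ (by linarith)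
  haveI := nu_prob hl0 hl2
  obtain ⟨bs, hbs, hgood⟩ := exists_good hβ hw hb hint hA hB mA mB
  obtain ⟨C, hC, hcos⟩ := exists_cos_lower hbs
  clear hint hA hB mA mB hb
  apply singular_of_eps
  intro ε hε
  obtain ⟨δ, hδ0, hδ1, hδ2⟩ : ∃ δ : ℝ, 0 < δ ∧ 32 * δ ≤ ε ∧ δ ≤ 1 :=
    ⟨min ε 1 / 32, by have := lt_min hε one_pos; positivity,
      by have := min_le_left ε 1; linarith, by have := min_le_right ε 1; linarith⟩
  obtain ⟨E, A, B, Z, L, d, hL, h, hE, hd1, hr⟩ :=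
    hgood (4 * C) (δ ^ 2 * exp (-(56 * C)) / 1000) (by linarith) (by positivity)
  have hd0 := h.tau_pos hβ
  have hE0 := hE.nonneg
  have key := fun (M : ℕ) (hM1 : 1 ≤ M) (s : ℝ) => h.test_freq hβ hw hL hE hd1 hC
    (fun x hx => hcos x (hx.trans (by linarith))) hM1 (s := s)
  have hc0 : 0 < exp (-(C * (E + 14))) := exp_pos _
  have hc1 : exp (-(C * (E + 14))) ≤ 1 := exp_le_one_iff.mpr (by nlinarith)
  have hr' : L * d ≤ (δ * exp (-(C * (E + 14))) ^ 2) ^ 2 / 1000 := by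
    refine hr.trans (le_of_eq ?_)
    have : exp (-(C * (E + 14))) ^ 4 = exp (-(56 * C)) * exp (-(4 * C * E)) := by
      rw [← exp_nat_mul, ← exp_add]; congr 1; push_cast; ring
    calc _ = δ ^ 2 * (exp (-(56 * C)) * exp (-(4 * C * E))) / 1000 := by ring
      _ = _ := by rw [← this]; ring
  generalize exp (-(C * (E + 14))) = c at key hc0 hc1 hr'
  clear hgood hcos hr h
  have hs0 : 0 < δ * c ^ 2 := by positivity
  have hs1 : δ * c ^ 2 ≤ 1 := mul_le_one₀ hδ2 (by positivity) (pow_le_one₀ hc0.le hc1)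
  obtain ⟨M, hMa, hMb⟩ : ∃ M : ℕ, 1 ≤ M * (δ * c ^ 2) ∧ M * (δ * c ^ 2) ≤ 2 := by
    generalize δ * c ^ 2 = s at hs0 hs1
    refine ⟨⌈1 / s⌉₊, ?_, ?_⟩
    · have := Nat.le_ceil (1 / s)
      rwa [div_le_iff₀ hs0] at this
    · have h1 := (Nat.ceil_lt_add_one (by positivity : 0 ≤ 1 / s)).le
      have h2 : (⌈1 / s⌉₊ : ℝ) * s ≤ (1 / s + 1) * s := by gcongr
      have h3 : (1 / s + 1) * s = 1 + s := by field_simp
      linarith
  have hMr : (1 : ℝ) ≤ M := by nlinarith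
  have hM1 : 1 ≤ M := by exact_mod_cast hMr
  have hMLd : M * (L * d) ≤ (δ * c ^ 2) / 500 := by
    generalize δ * c ^ 2 = s at hs0 hs1 hMa hMb hr'
    calc M * (L * d) ≤ M * (s ^ 2 / 1000) := by gcongr
      _ = (M * s) * s / 1000 := by ring
      _ ≤ 2 * s / 1000 := by gcongr
      _ = s / 500 := by ring
  obtain ⟨S, hS1, hS2, hS3⟩ := key M hM1 _ hs0 hs1 hMLd
  have h1 : 1 / (M * c ^ 2) ≤ δ := by
    rw [div_le_iff₀ (by positivity)]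
    linarith
  refine ⟨S, hS1, hS2.trans (ENNReal.ofReal_le_ofReal ?_),
    hS3.trans (ENNReal.ofReal_le_ofReal ?_)⟩
  · have h2 : 32 / (M * c ^ 2) = 32 * (1 / (M * c ^ 2)) := by ring
    linarith
  · have h2 : 8 / (M * c ^ 2) = 8 * (1 / (M * c ^ 2)) := by ring
    have h3 : 4 * (δ * c ^ 2) / c ^ 2 = 4 * δ := by field_simp
    linarith

end Vale.Agent.P105
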