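import Vale.Agent.P105.Main

namespace Vale.Agent.P105

open Real Polynomial

lemma cheb_int {U V : ℤ → ℝ} {y1 y2 : ℝ} {s p : ℤ} (h1 : y1 ^ 2 = s * y1 - p)
    (h2 : y2 ^ 2 = s * y2 - p) (hU : ∀ i, U (i + 2) = y1 * U (i + 1) - U i)
    (hV : ∀ i, V (i + 2) = y2 * V (i + 1) - V i) (U0 : U 0 = 0) (U1 : U 1 = 1) (V0 : V 0 = 0)
    (V1 : V 1 = 1) (i : ℤ) : ∃ P Q : ℤ, U i = P + Q * y1 ∧ V i = P + Q * y2 := by
  have key : ∀ i : ℤ, (∃ P Q : ℤ, U i = P + Q * y1 ∧ V i = P + Q * y2) ∧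
      (∃ P Q : ℤ, U (i + 1) = P + Q * y1 ∧ V (i + 1) = P + Q * y2) := by
    intro i
    induction i using Int.induction_on with
    | zero => exact ⟨⟨0, 0, by simp [U0], by simp [V0]⟩, ⟨1, 0, by simp [U1], by simp [V1]⟩⟩
    | succ i ih =>
      obtain ⟨⟨P, Q, a1, a2⟩, ⟨P', Q', b1, b2⟩⟩ := ih
      refine ⟨⟨P', Q', b1, b2⟩, ⟨-p * Q' - P, P' + s * Q' - Q, ?_, ?_⟩⟩
      · rw [add_assoc, one_add_one_eq_two, hU, a1, b1]; push_cast
        linear_combination (Q' : ℝ) * h1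
      · rw [add_assoc, one_add_one_eq_two, hV, a2, b2]; push_cast
        linear_combination (Q' : ℝ) * h2
    | pred i ih =>
      obtain ⟨⟨P, Q, a1, a2⟩, ⟨P', Q', b1, b2⟩⟩ := ih
      have e1 : -(i : ℤ) - 1 + 1 = -i := by ring
      have e2 : -(i : ℤ) - 1 + 2 = -i + 1 := by ring
      refine ⟨⟨-p * Q - P', P + s * Q - Q', ?_, ?_⟩, ⟨P, Q, by rw [e1, a1], by rw [e1, a2]⟩⟩
      · have := hU (-i - 1)
        rw [e1, e2, a1, b1] at this; push_cast
        linear_combination this + (Q : ℝ) * h1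
      · have := hV (-i - 1)
        rw [e1, e2, a2, b2] at this; push_cast
        linear_combination this + (Q : ℝ) * h2
  exact (key i).1

/-- The conjugate on the unit circle. -/
noncomputable def om (y : ℝ) : ℂ := ⟨y / 2, √(1 - y ^ 2 / 4)⟩

lemma om_norm {y : ℝ} (hy : 0 ≤ 1 - y ^ 2 / 4) : ‖om y‖ = 1 := by
  have h : ‖om y‖ ^ 2 = 1 := by
    rw [Complex.sq_norm, Complex.normSq_apply]
    simp only [om]
    rw [Real.mul_self_sqrt hy]; ring
  nlinarith [norm_nonneg (om y)]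

lemma om_sq {y : ℝ} (hy : 0 ≤ 1 - y ^ 2 / 4) : om y ^ 2 = y * om y - 1 := by
  apply Complex.ext
  · simp only [sq, Complex.mul_re, om, Complex.sub_re, Complex.ofReal_re, Complex.ofReal_im,
      Complex.one_re]
    have := Real.mul_self_sqrt hy
    rw [sq] at this
    rw [this]; ring
  · simp only [sq, Complex.mul_im, om, Complex.sub_im, Complex.ofReal_re, Complex.ofReal_im,
      Complex.one_im]
    ring

lemma singular_salem {β y2 : ℝ} {s p : ℤ} (hβ : 1.7 ≤ β)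
    (h1 : (β + β⁻¹) ^ 2 = s * (β + β⁻¹) - p) (h2 : y2 ^ 2 = s * y2 - p)
    (hΔ : 0 < β + β⁻¹ - y2) (hD1 : (β - β⁻¹) * (β + β⁻¹ - y2) ≤ 5)
    (hD2 : β ≤ 0.499 * ((β - β⁻¹) * (β + β⁻¹ - y2)))
    (hσ : 6.4 ≤ (1 - y2 ^ 2 / 4) * (β + β⁻¹ - y2) ^ 2) : IsSingularProb (nu β⁻¹) := by
  have hβ0 : 0 < β := by linarith
  have hy : 0 < 1 - y2 ^ 2 / 4 := by
    by_contra hc
    push Not at hc
    nlinarith [sq_nonneg (β + β⁻¹ - y2)]
  set σ := √(1 - y2 ^ 2 / 4) with hσd
  have hσ0 : 0 < σ := Real.sqrt_pos.mpr hy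
  have hσ2 : σ ^ 2 = 1 - y2 ^ 2 / 4 := Real.sq_sqrt hy.le
  set Δ := β + β⁻¹ - y2 with hΔd
  have hD0 : 0 < (β - β⁻¹) * Δ := by linarith
  have hb0 : 0 < β - β⁻¹ := by
    by_contra hc
    push Not at hc
    nlinarith
  have hw := om_norm hy.le
  have hw0 : om y2 ≠ 0 := by intro h; rw [h] at hw; simp at hw
  set c := 1 / ((β - β⁻¹) * Δ) with hc
  have hc0 : 0 < c := by positivity
  have hc1 : 1 / 5 ≤ c := one_div_le_one_div_of_le hD0 hD1
  have hc2 : c * β ≤ 0.499 := by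
    rw [hc, one_div_mul_eq_div, div_le_iff₀ hD0]; exact hD2
  set Z : ℂ := ⟨0, 1 / (2 * σ * Δ)⟩ with hZ
  have hZn : 2 * ‖Z‖ ≤ 0.396 := by
    have e : Z = ((1 / (2 * σ * Δ) : ℝ) : ℂ) * Complex.I := by
      apply Complex.ext <;> simp [hZ]
    rw [e, norm_mul, Complex.norm_I, mul_one, Complex.norm_real, Real.norm_eq_abs,
      abs_of_pos (by positivity)]
    have h3 : 2.529 ≤ σ * Δ := by
      apply le_of_sq_le_sq _ (by positivity)
      rw [mul_pow, hσ2]; linarith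
    rw [mul_one_div, div_le_iff₀ (by positivity)]
    nlinarith
  have hint : ∀ i : ℤ, ∃ k : ℤ, c * β ^ i + (-c) * β ^ (-i) + 2 * (Z * om y2 ^ i).re = k := by
    intro i
    obtain ⟨P, Q, hP, hQ⟩ := cheb_int (U := fun i => (β ^ i - β ^ (-i)) / (β - β⁻¹))
      (V := fun i => (om y2 ^ i).im / σ) h1 h2 (fun i => by
        simp only [neg_add, zpow_add₀ hβ0.ne', zpow_neg, zpow_two, zpow_one]
        field_simp
        ring) (fun i => by
        have e : om y2 ^ (i + 2) = y2 * om y2 ^ (i + 1) - om y2 ^ i := by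
          rw [zpow_add₀ hw0, zpow_add₀ hw0, zpow_two, zpow_one, ← sq, om_sq hy.le]; ring
        simp only [e, Complex.sub_im, Complex.mul_im, Complex.ofReal_re, Complex.ofReal_im]
        ring) (by simp) (by simp [hb0.ne']) (by simp) (by
        simp only [zpow_one, om]
        exact div_self hσ0.ne') i
    refine ⟨Q, ?_⟩
    have e1 : c * β ^ i + (-c) * β ^ (-i) = ((β ^ i - β ^ (-i)) / (β - β⁻¹)) / Δ := by
      rw [hc, div_div]; ring
    have e2 : 2 * (Z * om y2 ^ i).re = -(((om y2 ^ i).im / σ) / Δ) := by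
      simp only [hZ, Complex.mul_re]
      field_simp
      ring
    rw [e1, e2, hP, hQ, ← sub_eq_add_neg, ← sub_div, div_eq_iff hΔ.ne', hΔd]
    ring
  have mA : ∀ i : ℤ, dn (c * β ^ i) ≤ 0.499 := by
    intro i
    rcases le_or_gt i 1 with hi | hi
    · refine (dn_le_abs _).trans ?_
      rw [abs_of_pos (mul_pos hc0 (zpow_pos hβ0 _))]
      have : β ^ i ≤ β ^ (1 : ℤ) := zpow_le_zpow_right₀ (by linarith) hi
      rw [zpow_one] at this
      nlinarith
    · obtain ⟨k, hk⟩ := hint i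
      have g1 := dn_le_of_sum hk
      have g2 := re_le hw Z i
      have g3 := dn_le_abs (-c * β ^ (-i))
      rw [neg_mul, abs_neg, abs_of_pos (mul_pos hc0 (zpow_pos hβ0 _))] at g3
      have g4 : β ^ (-i) ≤ β ^ (-(2 : ℤ)) := zpow_le_zpow_right₀ (by linarith) (by omega)
      have g5 : c * β ^ (-(2 : ℤ)) ≤ 0.102 := by
        rw [zpow_neg, zpow_two, ← div_eq_mul_inv, div_le_iff₀ (by positivity)]
        have g6 : c * β ≤ 0.102 * (β * β) * β := by
          have : 1.7 * 1.7 * 1.7 ≤ β * β * β := by gcongr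
          linarith
        exact le_of_mul_le_mul_right g6 hβ0
      rw [neg_mul] at g1
      nlinarith
  refine singular_of_init (by linarith) hw (b := 0.499) (by norm_num) hint ?_ ?_ mA ?_
  · rwa [abs_of_pos hc0]
  · rw [abs_neg, abs_of_pos hc0]; nlinarith
  · intro i
    rw [neg_mul, dn_neg]; exact mA _

lemma quartic_irred {a b : ℤ} (h1 : 2 + 2 * a + b ≠ 0) (h2 : 2 - 2 * a + b ≠ 0)
    (h3 : ∀ u v : ℤ, u + v = a → u * v + 2 ≠ b) (h4 : a ≠ 0) :
    Irreducible (X ^ 4 + C a * X ^ 3 + C b * X ^ 2 + C a * X + 1 : ℤ[X]) := by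
  have hm : (X ^ 4 + C a * X ^ 3 + C b * X ^ 2 + C a * X + 1 : ℤ[X]).Monic := by monicity!
  have hd : (X ^ 4 + C a * X ^ 3 + C b * X ^ 2 + C a * X + 1 : ℤ[X]).natDegree = 4 := by
    compute_degree!
  rw [hm.irreducible_iff_natDegree']
  refine ⟨fun h => by rw [h] at hd; simp at hd, fun f g hf hg hfg hmem => ?_⟩
  rw [hd, Finset.mem_Ioc] at hmem
  have hsum : f.natDegree + g.natDegree = 4 := by rw [← hf.natDegree_mul hg, hfg, hd]
  have hev : ∀ x : ℤ, f.eval x * g.eval x = x ^ 4 + a * x ^ 3 + b * x ^ 2 + a * x + 1 := by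
    intro x
    rw [← eval_mul, hfg]; simp
  have hcase : g.natDegree = 1 ∨ g.natDegree = 2 := by omega
  rcases hcase with hg1 | hg2
  · have e := hg.eq_X_add_C hg1
    have h5 := hev (-g.coeff 0)
    have h6 : g.eval (-g.coeff 0) = 0 := by
      conv_lhs => rw [e]
      simp
    rw [h6, mul_zero] at h5
    generalize -g.coeff 0 = x at h5
    have h7 : x * (-(x ^ 3 + a * x ^ 2 + b * x + a)) = 1 := by linarith
    rcases Int.eq_one_or_neg_one_of_mul_eq_one h7 with rfl | rfl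
    · apply h1; linarith
    · apply h2; linarith
  · have hf2 : f.natDegree = 2 := by omega
    have quad : ∀ q : ℤ[X], q.Monic → q.natDegree = 2 → ∀ x : ℤ,
        q.eval x = x ^ 2 + q.coeff 1 * x + q.coeff 0 := by
      intro q hq hq2 x
      rw [eval_eq_sum_range, hq2]
      have : q.coeff 2 = 1 := by rw [← hq2]; exact hq.coeff_natDegree
      simp [Finset.sum_range_succ, this]; ring
    simp_rw [quad f hf hf2, quad g hg hg2] at hev
    generalize f.coeff 1 = u at hev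
    generalize f.coeff 0 = r at hev
    generalize g.coeff 1 = v at hev
    generalize g.coeff 0 = t at hev
    have e0 := hev 0
    have e1 := hev 1
    have e2 := hev (-1)
    have e3 := hev 2
    have e4 := hev (-2)
    have hrt : r * t = 1 := by linarith
    rcases Int.eq_one_or_neg_one_of_mul_eq_one' hrt with ⟨rfl, rfl⟩ | ⟨rfl, rfl⟩
    · exact h3 u v (by nlinarith) (by nlinarith)
    · apply h4; nlinarith

lemma not_pisot {a b : ℤ} {β y : ℝ}
    (hirr : Irreducible (X ^ 4 + C a * X ^ 3 + C b * X ^ 2 + C a * X + 1 : ℤ[X]))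
    (hβ : β ^ 4 + a * β ^ 3 + b * β ^ 2 + a * β + 1 = 0) (hy : 0 ≤ 1 - y ^ 2 / 4)
    (hy2 : y ^ 2 + a * y + b - 2 = 0) : ¬ IsPisot β := by
  rintro ⟨_, h1, h2⟩
  have hm : (X ^ 4 + C a * X ^ 3 + C b * X ^ 2 + C a * X + 1 : ℤ[X]).Monic := by monicity!
  have hirr' := (hm.irreducible_iff_irreducible_map_fraction_map (K := ℚ)).mp hirr
  have hmin := minpoly.eq_of_irreducible_of_monic (x := β) hirr' (by
    rw [aeval_map_algebraMap]; simpa using hβ) (hm.map _)
  have hw := om_norm hy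
  have h3 := h2 (om y) (by
    rw [← hmin, aeval_map_algebraMap]
    have e := om_sq hy
    have hy3 : (y : ℂ) ^ 2 + a * y + b - 2 = 0 := by exact_mod_cast hy2
    simp only [map_add, map_pow, aeval_X, map_mul, eq_intCast, map_intCast, map_one]
    linear_combination (om y ^ 2 + (a + y) * om y + 1) * e + om y ^ 2 * hy3) (by
    intro h
    rw [h, Complex.norm_real, Real.norm_eq_abs, abs_of_pos (by linarith)] at hw
    linarith)
  linarith

lemma case_one {β : ℝ} (h1 : 1 < β) (h : β ^ 4 - β ^ 3 - β ^ 2 - β + 1 = 0) :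
    β < 2 ∧ ¬ IsPisot β ∧ IsSingularProb (nu β⁻¹) := by
  have h0 : 0 < β := by linarith
  have hi : β * β⁻¹ = 1 := mul_inv_cancel₀ h0.ne'
  have hi0 : 0 < β⁻¹ := inv_pos.mpr h0
  have hy : (β + β⁻¹) ^ 2 = (β + β⁻¹) + 3 := by
    field_simp
    linarith
  have hy1 : 2.3 < β + β⁻¹ := by nlinarith
  have hy2 : β + β⁻¹ < 2.31 := by nlinarith
  have hq : β ^ 2 - (β + β⁻¹) * β + 1 = 0 := by nlinarith
  have hb1 : 1.71 < β := by nlinarith
  have hb2 : β < 1.74 := by nlinarith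
  refine ⟨by linarith, ?_, ?_⟩
  · refine not_pisot (a := -1) (b := -1) (y := 1 - (β + β⁻¹))
      (quartic_irred (by norm_num) (by norm_num) (fun u v huv h3 => ?_) (by norm_num))
      (by push_cast; linarith) (by nlinarith) (by push_cast; nlinarith)
    have hv : v = -1 - u := by linarith
    subst hv
    have : u < 2 := by nlinarith
    have : -3 < u := by nlinarith
    interval_cases u <;> omega
  · refine singular_salem (y2 := 1 - (β + β⁻¹)) (s := 1) (p := -3) (by linarith)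
      (by push_cast; linarith) (by push_cast; nlinarith) (by linarith) (by nlinarith)
      (by nlinarith) ?_
    have g1 : 0.57 ≤ 1 - (1 - (β + β⁻¹)) ^ 2 / 4 := by nlinarith
    have g2 : 12 ≤ (β + β⁻¹ - (1 - (β + β⁻¹))) ^ 2 := by nlinarith
    nlinarith

lemma case_two {β : ℝ} (h1 : 1 < β) (h : β ^ 4 - 2 * β ^ 3 + β ^ 2 - 2 * β + 1 = 0) :
    β < 2 ∧ ¬ IsPisot β ∧ IsSingularProb (nu β⁻¹) := by
  have h0 : 0 < β := by linarith
  have hi : β * β⁻¹ = 1 := mul_inv_cancel₀ h0.ne'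
  have hi0 : 0 < β⁻¹ := inv_pos.mpr h0
  have hy : (β + β⁻¹) ^ 2 = 2 * (β + β⁻¹) + 1 := by
    field_simp
    linarith
  have hy1 : 2.414 < β + β⁻¹ := by nlinarith
  have hy2 : β + β⁻¹ < 2.415 := by nlinarith
  have hq : β ^ 2 - (β + β⁻¹) * β + 1 = 0 := by nlinarith
  have hb1 : 1.88 < β := by nlinarith
  have hb2 : β < 1.885 := by nlinarith
  refine ⟨by linarith, ?_, ?_⟩
  · refine not_pisot (a := -2) (b := 1) (y := 2 - (β + β⁻¹))
      (quartic_irred (by norm_num) (by norm_num) (fun u v huv h3 => ?_) (by norm_num))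
      (by push_cast; linarith) (by nlinarith) (by push_cast; nlinarith)
    have hv : v = -2 - u := by linarith
    subst hv
    have : u < 1 := by nlinarith
    have : -3 < u := by nlinarith
    interval_cases u <;> omega
  · have g0 : 1.345 ≤ β - β⁻¹ := by linarith
    have g0' : β - β⁻¹ ≤ 1.36 := by linarith
    refine singular_salem (y2 := 2 - (β + β⁻¹)) (s := 2) (p := -1) (by linarith)
      (by push_cast; linarith) (by push_cast; nlinarith) (by linarith) (by nlinarith)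
      (by nlinarith) ?_
    have g1 : 0.9 ≤ 1 - (2 - (β + β⁻¹)) ^ 2 / 4 := by nlinarith
    have g2 : 7.9 ≤ (β + β⁻¹ - (2 - (β + β⁻¹))) ^ 2 := by nlinarith
    nlinarith

lemma exists_root_one : ∃ β : ℝ, 1 < β ∧ β ^ 4 - β ^ 3 - β ^ 2 - β + 1 = 0 := by
  have hc : ContinuousOn (fun x : ℝ => x ^ 4 - x ^ 3 - x ^ 2 - x + 1) (Set.Icc 1 2) := by fun_prop
  obtain ⟨x, hx, hx0⟩ := intermediate_value_Ioo (by norm_num : (1 : ℝ) ≤ 2) hc
    (show (0 : ℝ) ∈ Set.Ioo _ _ by norm_num)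
  exact ⟨x, hx.1, hx0⟩

lemma exists_root_two : ∃ β : ℝ, 1 < β ∧ β ^ 4 - 2 * β ^ 3 + β ^ 2 - 2 * β + 1 = 0 := by
  have hc : ContinuousOn (fun x : ℝ => x ^ 4 - 2 * x ^ 3 + x ^ 2 - 2 * x + 1) (Set.Icc 1 2) := by
    fun_prop
  obtain ⟨x, hx, hx0⟩ := intermediate_value_Ioo (by norm_num : (1 : ℝ) ≤ 2) hc
    (show (0 : ℝ) ∈ Set.Ioo _ _ by norm_num)
  exact ⟨x, hx.1, hx0⟩

end Vale.Agent.P105
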