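import Vale.Agent.P105.Basic

namespace Vale.Agent.P105

open Real Finset

/-- The data carried along the iteration. -/
structure St (β : ℝ) (w : ℂ) (A B : ℝ) (Z : ℂ) (L : ℕ) (τ z b : ℝ) : Prop where
  int : ∀ i : ℤ, ∃ k : ℤ, A * β ^ i + B * β ^ (-i) + 2 * (Z * w ^ i).re = k
  A1 : 1 / 5 ≤ |A|
  A2 : |A| ≤ τ * β ^ L
  L1 : 1 ≤ τ * β ^ L
  B1 : |B| ≤ 1
  Z1 : ‖Z‖ ≤ z
  mA : ∀ i : ℤ, dn (A * β ^ i) ≤ b
  mB : ∀ i : ℤ, dn (B * β ^ (-i)) ≤ b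

/-- Bound on the backward energy. -/
def En (β A E : ℝ) : Prop := ∀ K : ℕ, ∑ k ∈ range K, dn (A * β ^ (-(k : ℤ))) ^ 2 ≤ E

variable {β : ℝ} {w : ℂ} {A B : ℝ} {Z : ℂ} {L : ℕ} {τ z b : ℝ}

lemma re_le (hw : ‖w‖ = 1) (Z : ℂ) (i : ℤ) : |2 * (Z * w ^ i).re| ≤ 2 * ‖Z‖ := by
  rw [abs_mul, abs_two]
  have h := Complex.abs_re_le_norm (Z * w ^ i)
  rw [norm_mul, norm_zpow, hw, one_zpow, mul_one] at h
  linarith

lemma St.tA (h : St β w A B Z L τ z b) (hw : ‖w‖ = 1) (i : ℤ) :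
    dn (A * β ^ i) ≤ dn (B * β ^ (-i)) + 2 * z := by
  obtain ⟨k, hk⟩ := h.int i
  have := dn_le_of_sum hk
  have := re_le hw Z i
  have := h.Z1
  linarith

lemma St.tA' (h : St β w A B Z L τ z b) (hβ : 3 / 2 ≤ β) (hw : ‖w‖ = 1) (i : ℤ) :
    dn (A * β ^ i) ≤ β ^ (-i) + 2 * z := by
  have h1 := h.tA hw i
  have h2 := dn_le_abs (B * β ^ (-i))
  have hp : 0 < β ^ (-i) := zpow_pos (by linarith) _
  rw [abs_mul, abs_of_pos hp] at h2
  have := h.B1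
  nlinarith

lemma St.inv_le (h : St β w A B Z L τ z b) (hβ : 3 / 2 ≤ β) {i : ℤ} (hi : (L : ℤ) ≤ i) :
    β ^ (-i) ≤ τ := by
  have h0 : 0 < β := by linarith
  have h1 : β ^ (-i) ≤ β ^ (-(L : ℤ)) := zpow_le_zpow_right₀ (by linarith) (by omega)
  refine h1.trans ?_
  rw [zpow_neg, zpow_natCast, inv_le_iff_one_le_mul₀ (pow_pos h0 _)]
  exact h.L1

lemma St.tau_pos (h : St β w A B Z L τ z b) (hβ : 3 / 2 ≤ β) : 0 < τ :=
  (zpow_pos (by linarith) _).trans_le (h.inv_le hβ le_rfl)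

lemma St.small (h : St β w A B Z L τ z b) (hβ : 3 / 2 ≤ β) (i : ℤ) :
    |A * β ^ i| ≤ τ * β ^ (i + L) := by
  have h0 : 0 < β := by linarith
  rw [abs_mul, abs_of_pos (zpow_pos h0 i), zpow_add₀ h0.ne', zpow_natCast]
  have := h.A2
  have hp := zpow_pos h0 i
  nlinarith

lemma St.small' (h : St β w A B Z L τ z b) (hβ : 3 / 2 ≤ β) {i : ℤ} (hi : i ≤ -(L : ℤ)) :
    |A * β ^ i| ≤ τ := by
  refine (h.small hβ i).trans ?_
  have h1 : β ^ (i + L) ≤ 1 := zpow_le_one_of_nonpos₀ (by linarith) (by omega)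
  have := h.tau_pos hβ
  nlinarith

lemma St.fwd (h : St β w A B Z L τ z b) (hβ : 3 / 2 ≤ β) (hw : ‖w‖ = 1) {i : ℤ}
    (hi : (L : ℤ) ≤ i) : dn (A * β ^ i) ≤ τ + 2 * z := by
  have := h.tA' hβ hw i
  have := h.inv_le hβ hi
  linarith

lemma step_A (hβ : 3 / 2 ≤ β) (A : ℝ) (n : ℕ) (i : ℤ) :
    A * (β ^ n - 1) * β ^ i = A * β ^ (i + n) - A * β ^ i := by
  rw [zpow_add₀ (by linarith : β ≠ 0), zpow_natCast]; ring

lemma step_B (hβ : 3 / 2 ≤ β) (B : ℝ) (n : ℕ) (i : ℤ) :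
    B * ((β ^ n)⁻¹ - 1) * β ^ (-i) = B * β ^ (-(i + n)) - B * β ^ (-i) := by
  rw [neg_add, zpow_add₀ (by linarith : β ≠ 0), zpow_neg β (n : ℤ), zpow_natCast]; ring

lemma St.step (h : St β w A B Z L τ z b) (hβ : 3 / 2 ≤ β) (hw : ‖w‖ = 1) {n : ℕ}
    (hn : 2 * L ≤ n) (hn2 : 2 ≤ n) {κ τ' : ℝ} {L' : ℕ} (hκ : ‖w ^ n - 1‖ ≤ κ)
    (hL' : τ * β ^ (L + n) ≤ τ' * β ^ L') :
    St β w (A * (β ^ n - 1)) (B * ((β ^ n)⁻¹ - 1)) (Z * (w ^ n - 1)) L' τ' (z * κ)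
      (b + τ + 2 * (z * κ)) := by
  have h0 : 0 < β := by linarith
  have hw0 : w ≠ 0 := by rintro rfl; simp at hw
  have hτ := h.tau_pos hβ
  have hpn : 2 ≤ β ^ n := by
    have h1 : β ^ 2 ≤ β ^ n := pow_le_pow_right₀ (by linarith) hn2
    nlinarith
  have hz0 : 0 ≤ z := (norm_nonneg _).trans h.Z1
  have hκ0 : 0 ≤ κ := (norm_nonneg _).trans hκ
  have hint : ∀ i : ℤ, ∃ k : ℤ, A * (β ^ n - 1) * β ^ i + B * ((β ^ n)⁻¹ - 1) * β ^ (-i)
      + 2 * (Z * (w ^ n - 1) * w ^ i).re = k := by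
    intro i
    obtain ⟨k1, hk1⟩ := h.int (i + n)
    obtain ⟨k2, hk2⟩ := h.int i
    refine ⟨k1 - k2, ?_⟩
    have e : Z * (w ^ n - 1) * w ^ i = Z * w ^ (i + n) - Z * w ^ i := by
      rw [zpow_add₀ hw0, zpow_natCast]; ring
    rw [step_A hβ, step_B hβ, e, Complex.sub_re]
    push_cast
    linarith
  have hZ : ‖Z * (w ^ n - 1)‖ ≤ z * κ := by
    rw [norm_mul]
    exact mul_le_mul h.Z1 hκ (norm_nonneg _) hz0
  have hlow : ∀ i : ℤ, i ≤ -(L : ℤ) → dn (A * (β ^ n - 1) * β ^ i) ≤ b + τ := by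
    intro i hi
    rw [step_A hβ]
    have := dn_sub_le (A * β ^ (i + n)) (A * β ^ i)
    have := h.mA (i + n)
    have := dn_le_abs (A * β ^ i)
    have := h.small' hβ hi
    linarith
  have hhigh : ∀ i : ℤ, -(L : ℤ) ≤ i → dn (B * ((β ^ n)⁻¹ - 1) * β ^ (-i)) ≤ b + τ := by
    intro i hi
    rw [step_B hβ]
    have := dn_sub_le (B * β ^ (-(i + n))) (B * β ^ (-i))
    have := h.mB i
    have h2 := dn_le_abs (B * β ^ (-(i + n)))
    have hp : 0 < β ^ (-(i + n)) := zpow_pos h0 _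
    rw [abs_mul, abs_of_pos hp] at h2
    have h3 := h.inv_le hβ (i := i + n) (by omega)
    have := h.B1
    nlinarith
  refine ⟨hint, ?_, ?_, ?_, ?_, hZ, ?_, ?_⟩
  · rw [abs_mul, abs_of_pos (by linarith : 0 < β ^ n - 1)]
    have := h.A1
    nlinarith
  · refine le_trans ?_ hL'
    rw [abs_mul, abs_of_pos (by linarith : 0 < β ^ n - 1), pow_add]
    have := h.A2
    have := abs_nonneg A
    nlinarith
  · refine le_trans ?_ hL'
    rw [pow_add]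
    have := h.L1
    nlinarith
  · rw [abs_mul]
    have h1 : |(β ^ n)⁻¹ - 1| ≤ 1 := by
      have h2 : 0 < (β ^ n)⁻¹ := by positivity
      have h3 : (β ^ n)⁻¹ ≤ 1 := inv_le_one_of_one_le₀ (by linarith)
      rw [abs_le]; constructor <;> linarith
    have := h.B1
    have := abs_nonneg B
    have := abs_nonneg ((β ^ n)⁻¹ - 1)
    nlinarith
  · intro i
    have hzk : 0 ≤ z * κ := by positivity
    rcases le_total i (-(L : ℤ)) with hi | hi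
    · have := hlow i hi; linarith
    · obtain ⟨k, hk⟩ := hint i
      have := dn_le_of_sum hk
      have := re_le hw (Z * (w ^ n - 1)) i
      have := hhigh i hi
      linarith
  · intro i
    have hzk : 0 ≤ z * κ := by positivity
    rcases le_total i (-(L : ℤ)) with hi | hi
    · obtain ⟨k, hk⟩ := hint i
      rw [add_comm (A * _ * _)] at hk
      have := dn_le_of_sum hk
      have := re_le hw (Z * (w ^ n - 1)) i
      have := hlow i hi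
      linarith
    · have := hhigh i hi; linarith

lemma geom_le (hβ : 3 / 2 ≤ β) (K : ℕ) : ∑ k ∈ range K, β ^ (-(k : ℤ)) ≤ 3 := by
  have h1 : ∀ k : ℕ, β ^ (-(k : ℤ)) ≤ (2 / 3 : ℝ) ^ k := by
    intro k
    rw [zpow_neg, zpow_natCast, ← inv_pow]
    apply pow_le_pow_left₀ (by positivity)
    rw [inv_le_comm₀ (by linarith) (by norm_num)]
    linarith
  refine (sum_le_sum fun k _ => h1 k).trans ?_
  have h2 := (summable_geometric_of_lt_one (r := (2 / 3 : ℝ)) (by norm_num)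
    (by norm_num)).sum_le_tsum (range K) (fun k _ => by positivity)
  rw [tsum_geometric_of_lt_one (by norm_num) (by norm_num)] at h2
  linarith

lemma geom_sq_le (hβ : 3 / 2 ≤ β) (K : ℕ) : ∑ k ∈ range K, (β ^ (-(k : ℤ))) ^ 2 ≤ 3 := by
  refine le_trans (sum_le_sum fun k _ => ?_) (geom_le hβ K)
  have h1 : β ^ (-(k : ℤ)) ≤ 1 := zpow_le_one_of_nonpos₀ (by linarith) (by omega)
  have h2 : 0 < β ^ (-(k : ℤ)) := zpow_pos (by linarith) _
  nlinarith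

lemma en_init (hβ : 3 / 2 ≤ β) (A : ℝ) : En β A (3 * A ^ 2) := by
  intro K
  have h1 : ∀ k : ℕ, dn (A * β ^ (-(k : ℤ))) ^ 2 ≤ A ^ 2 * (β ^ (-(k : ℤ))) ^ 2 := by
    intro k
    rw [← mul_pow, ← sq_abs (A * _)]
    exact pow_le_pow_left₀ (dn_nonneg _) (dn_le_abs _) 2
  refine (sum_le_sum fun k _ => h1 k).trans ?_
  rw [← mul_sum]
  have := geom_sq_le hβ K
  nlinarith [sq_nonneg A]

lemma En.nonneg {E : ℝ} (h : En β A E) : 0 ≤ E := by simpa using h 0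

/-- Energy up to a forward index. -/
lemma St.en_fwd (h : St β w A B Z L τ z b) (hβ : 3 / 2 ≤ β) (hw : ‖w‖ = 1) {E : ℝ}
    (hE : En β A E) (N K : ℕ) :
    ∑ k ∈ range K, dn (A * β ^ ((N : ℤ) - k)) ^ 2 ≤ E + 6 + 8 * N * z ^ 2 := by
  have h1 : ∑ k ∈ range K, dn (A * β ^ ((N : ℤ) - k)) ^ 2
      ≤ ∑ k ∈ range (N + K), dn (A * β ^ ((N : ℤ) - k)) ^ 2 :=
    sum_le_sum_of_subset_of_nonneg (range_subset_range.mpr (by omega)) (fun _ _ _ => sq_nonneg _)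
  refine h1.trans ?_
  rw [sum_range_add]
  have h2 : ∑ k ∈ range K, dn (A * β ^ ((N : ℤ) - ((N + k : ℕ) : ℤ))) ^ 2 ≤ E := by
    refine le_trans (le_of_eq ?_) (hE K)
    refine sum_congr rfl fun k _ => ?_
    congr 4
    push_cast; ring
  have h3 : ∑ k ∈ range N, dn (A * β ^ ((N : ℤ) - k)) ^ 2 ≤ 6 + 8 * N * z ^ 2 := by
    rw [← sum_range_reflect]
    have h4 : ∀ k ∈ range N, dn (A * β ^ ((N : ℤ) - ((N - 1 - k : ℕ) : ℤ))) ^ 2
        ≤ 2 * (β ^ (-(k : ℤ))) ^ 2 + 8 * z ^ 2 := by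
      intro k hk
      have hk' := mem_range.mp hk
      have e : (N : ℤ) - ((N - 1 - k : ℕ) : ℤ) = k + 1 := by omega
      rw [e]
      have h5 := h.tA' hβ hw (k + 1)
      have h6 : β ^ (-((k : ℤ) + 1)) ≤ β ^ (-(k : ℤ)) :=
        zpow_le_zpow_right₀ (by linarith) (by omega)
      have h7 := dn_nonneg (A * β ^ ((k : ℤ) + 1))
      have h8 : dn (A * β ^ ((k : ℤ) + 1)) ≤ β ^ (-(k : ℤ)) + 2 * z := by linarith
      have h9 := pow_le_pow_left₀ h7 h8 2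
      nlinarith [sq_nonneg (β ^ (-(k : ℤ)) - 2 * z)]
    refine (sum_le_sum h4).trans ?_
    rw [sum_add_distrib, ← mul_sum, sum_const, card_range, nsmul_eq_mul]
    have := geom_sq_le hβ N
    nlinarith
  linarith

lemma St.en_step {d : ℝ} (h : St β w A B Z L d d b) (hβ : 3 / 2 ≤ β) (hw : ‖w‖ = 1) {E : ℝ}
    (hE : En β A E) {n : ℕ} (hn : 2 * L ≤ n) (hd : d ≤ 1) (hnd : n * d ^ 2 ≤ 2) :
    En β (A * (β ^ n - 1)) (2.2 * E + 200) := by
  intro K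
  have hd0 := h.tau_pos hβ
  have h1 : ∑ k ∈ range K, dn (A * (β ^ n - 1) * β ^ (-(k : ℤ))) ^ 2
      ≤ ∑ k ∈ range (L + K), dn (A * (β ^ n - 1) * β ^ (-(k : ℤ))) ^ 2 :=
    sum_le_sum_of_subset_of_nonneg (range_subset_range.mpr (by omega)) (fun _ _ _ => sq_nonneg _)
  refine h1.trans ?_
  rw [sum_range_add]
  have hsq : ∀ x y t : ℝ, 0 ≤ t → t ≤ x + y → t ^ 2 ≤ 1.1 * x ^ 2 + 11 * y ^ 2 := by
    intro x y t ht hxy
    have := pow_le_pow_left₀ ht hxy 2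
    nlinarith [sq_nonneg (x - 10 * y)]
  have h2 : ∑ k ∈ range L, dn (A * (β ^ n - 1) * β ^ (-(k : ℤ))) ^ 2 ≤ 1.1 * E + 99 := by
    have h3 : ∀ k ∈ range L, dn (A * (β ^ n - 1) * β ^ (-(k : ℤ))) ^ 2
        ≤ 1.1 * dn (A * β ^ (-(k : ℤ))) ^ 2 + 11 * (3 * d) ^ 2 := by
      intro k hk
      have hk' := mem_range.mp hk
      apply hsq _ _ _ (dn_nonneg _)
      rw [step_A hβ]
      have := dn_sub_le (A * β ^ (-(k : ℤ) + n)) (A * β ^ (-(k : ℤ)))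
      have := h.fwd hβ hw (i := -(k : ℤ) + n) (by omega)
      linarith
    refine (sum_le_sum h3).trans ?_
    rw [sum_add_distrib, ← mul_sum, sum_const, card_range, nsmul_eq_mul]
    have := hE L
    have h4 : (2 * L : ℝ) ≤ n := by exact_mod_cast hn
    nlinarith [sq_nonneg d]
  have h3 : ∑ k ∈ range K, dn (A * (β ^ n - 1) * β ^ (-((L + k : ℕ) : ℤ))) ^ 2
      ≤ 1.1 * E + 60 := by
    have h4 : ∀ k ∈ range K, dn (A * (β ^ n - 1) * β ^ (-((L + k : ℕ) : ℤ))) ^ 2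
        ≤ 1.1 * dn (A * β ^ (((n - L : ℕ) : ℤ) - k)) ^ 2 + 11 * (β ^ (-(k : ℤ))) ^ 2 := by
      intro k _
      apply hsq _ _ _ (dn_nonneg _)
      rw [step_A hβ]
      have e : -((L + k : ℕ) : ℤ) + n = ((n - L : ℕ) : ℤ) - k := by omega
      rw [e]
      have := dn_sub_le (A * β ^ (((n - L : ℕ) : ℤ) - k)) (A * β ^ (-((L + k : ℕ) : ℤ)))
      have := dn_le_abs (A * β ^ (-((L + k : ℕ) : ℤ)))
      have h5 := h.small hβ (-((L + k : ℕ) : ℤ))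
      have e2 : -((L + k : ℕ) : ℤ) + L = -(k : ℤ) := by omega
      rw [e2] at h5
      have h6 : 0 < β ^ (-(k : ℤ)) := zpow_pos (by linarith) _
      nlinarith
    refine (sum_le_sum h4).trans ?_
    rw [sum_add_distrib, ← mul_sum, ← mul_sum]
    have h5 := h.en_fwd hβ hw hE (n - L) K
    have h6 := geom_sq_le hβ K
    have h7 : ((n - L : ℕ) : ℝ) ≤ n := by exact_mod_cast Nat.sub_le n L
    nlinarith [sq_nonneg d]
  linarith

end Vale.Agent.P105
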